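import Crest.Agent.R341.Scalar

/-! Convexity of the entropy as a function of the concurrence. -/

set_option autoImplicit false

namespace Crest.Agent.R341

open Real Set

theorem G_antitone :
    AntitoneOn (fun x : ℝ => √(1 - x ^ 2) * (log (1 + x) - log (1 - x)) / (2 * x)) (Ioo 0 1) := by
  have hd : ∀ x ∈ Ioo (0 : ℝ) 1, HasDerivAt
      (fun x : ℝ => √(1 - x ^ 2) * (log (1 + x) - log (1 - x)) / (2 * x))
      ((2 * x - (log (1 + x) - log (1 - x))) / (2 * x ^ 2 * √(1 - x ^ 2))) x := by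
    rintro x ⟨x0, x1⟩
    have h1 : 0 < 1 - x ^ 2 := by nlinarith
    have h2 : 0 < √(1 - x ^ 2) := Real.sqrt_pos.2 h1
    have h3 : 0 < 1 - x := by linarith
    have d1 : HasDerivAt (fun x : ℝ => √(1 - x ^ 2)) (-(2 * x) / (2 * √(1 - x ^ 2))) x := by
      refine HasDerivAt.sqrt ?_ h1.ne'
      simpa using (hasDerivAt_pow 2 x).const_sub 1
    have d2 : HasDerivAt (fun x : ℝ => log (1 + x)) (1 / (1 + x)) x :=
      ((hasDerivAt_id x).const_add 1).log (by positivity)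
    have d3 : HasDerivAt (fun x : ℝ => log (1 - x)) (-1 / (1 - x)) x :=
      ((hasDerivAt_id x).const_sub 1).log h3.ne'
    have d4 : HasDerivAt (fun x : ℝ => 2 * x) 2 x := by
      simpa using (hasDerivAt_id x).const_mul 2
    refine ((d1.fun_mul (d2.fun_sub d3)).fun_div d4 (by positivity)).congr_deriv ?_
    have h4 : √(1 - x ^ 2) ^ 2 = (1 + x) * (1 - x) := by rw [Real.sq_sqrt h1.le]; ring
    set s := √(1 - x ^ 2)
    set L := log (1 + x) - log (1 - x)
    field_simp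
    rw [h4]
    ring
  refine antitoneOn_of_deriv_nonpos (convex_Ioo 0 1)
    (fun x hx => (hd x hx).continuousAt.continuousWithinAt) ?_ ?_
  · intro x hx
    rw [interior_Ioo] at hx
    exact (hd x hx).differentiableAt.differentiableWithinAt
  · intro x hx
    rw [interior_Ioo] at hx
    rw [(hd x hx).deriv]
    obtain ⟨x0, x1⟩ := hx
    have h3 : 0 < 1 - x := by linarith
    refine div_nonpos_of_nonpos_of_nonneg ?_ (by positivity)
    have h := Real.le_log_one_add_of_nonneg (x := 2 * x / (1 - x)) (by positivity)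
    have e1 : 1 + 2 * x / (1 - x) = (1 + x) / (1 - x) := by field_simp; ring
    have e2 : 2 * (2 * x / (1 - x)) / (2 * x / (1 - x) + 2) = 2 * x := by field_simp; ring
    rw [e1, e2, Real.log_div (by positivity) h3.ne'] at h
    linarith

theorem eps_convex : ConvexOn ℝ (Icc 0 1) fun C : ℝ => binEntropy ((1 + √(1 - C ^ 2)) / 2) := by
  have hx : ∀ C ∈ Ioo (0 : ℝ) 1, √(1 - C ^ 2) ∈ Ioo (0 : ℝ) 1 := by
    rintro C ⟨c0, c1⟩
    refine ⟨Real.sqrt_pos.2 (by nlinarith), ?_⟩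
    rw [Real.sqrt_lt' one_pos]
    nlinarith
  have hd : ∀ C ∈ Ioo (0 : ℝ) 1, HasDerivAt (fun C : ℝ => binEntropy ((1 + √(1 - C ^ 2)) / 2))
      (√(1 - √(1 - C ^ 2) ^ 2) * (log (1 + √(1 - C ^ 2)) - log (1 - √(1 - C ^ 2))) /
        (2 * √(1 - C ^ 2))) C := by
    intro C hC
    obtain ⟨x0, x1⟩ := hx C hC
    obtain ⟨c0, c1⟩ := hC
    have h1 : 0 < 1 - C ^ 2 := by nlinarith
    have d1 : HasDerivAt (fun x : ℝ => √(1 - x ^ 2)) (-(2 * C) / (2 * √(1 - C ^ 2))) C := by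
      refine HasDerivAt.sqrt ?_ h1.ne'
      simpa using (hasDerivAt_pow 2 C).const_sub 1
    have d2 := (d1.const_add 1).div_const 2
    have d3 := (Real.hasDerivAt_binEntropy (p := (1 + √(1 - C ^ 2)) / 2) (by positivity)
      (by linarith)).comp C d2
    refine d3.congr_deriv ?_
    rw [Real.sq_sqrt h1.le, sub_sub_cancel, Real.sqrt_sq c0.le]
    set x := √(1 - C ^ 2)
    rw [show 1 - (1 + x) / 2 = (1 - x) / 2 by ring, Real.log_div (by linarith) two_ne_zero,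
      Real.log_div (by linarith) two_ne_zero]
    field_simp
    ring
  refine MonotoneOn.convexOn_of_deriv (convex_Icc 0 1) ?_ ?_ ?_
  · exact (Real.binEntropy_continuous.comp (by fun_prop)).continuousOn
  · intro x hx
    rw [interior_Icc] at hx
    exact (hd x hx).differentiableAt.differentiableWithinAt
  · rw [interior_Icc]
    intro C₁ h₁ C₂ h₂ h
    rw [(hd C₁ h₁).deriv, (hd C₂ h₂).deriv]
    refine G_antitone (hx C₂ h₂) (hx C₁ h₁) (Real.sqrt_le_sqrt ?_)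
    nlinarith [h₁.1]

theorem E2_jensen {ι : Type*} [Fintype ι] {q x : ι → ℝ} (q0 : ∀ i, 0 ≤ q i) (q1 : ∑ i, q i = 1)
    {c₀ c₁ : ℝ} (h₀ : 0 ≤ c₀) (h₁ : 0 ≤ c₁) (hx : ∀ i, 4 * (c₀ + c₁ * x i ^ 2) ≤ 1) :
    E2 1 (c₀ + c₁ * (∑ i, q i * x i) ^ 2) ≤ ∑ i, q i * E2 1 (c₀ + c₁ * x i ^ 2) := by
  set C : ι → ℝ := fun i => 2 * √(c₀ + c₁ * x i ^ 2) with hC
  have v0 : ∀ y : ℝ, 0 ≤ c₀ + c₁ * y ^ 2 := fun y => by positivity
  have C2 : ∀ i, C i ^ 2 = 4 * (c₀ + c₁ * x i ^ 2) := fun i => by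
    rw [hC, mul_pow, Real.sq_sqrt (v0 _)]
    ring
  have C0 : ∀ i, 0 ≤ C i := fun i => by positivity
  have C1 : ∀ i, C i ≤ 1 := fun i => by nlinarith [C2 i, hx i, C0 i]
  have J := eps_convex.map_sum_le (t := Finset.univ) (w := q) (p := C) (fun i _ => q0 i) q1
    (fun i _ => ⟨C0 i, C1 i⟩)
  simp only [smul_eq_mul] at J
  set X := ∑ i, q i * x i with hX
  set D := ∑ i, q i * C i with hD
  have D0 : 0 ≤ D := Finset.sum_nonneg fun i _ => mul_nonneg (q0 i) (C0 i)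
  have D1 : D ≤ 1 := by
    rw [← q1]
    exact Finset.sum_le_sum fun i _ => mul_le_of_le_one_right (q0 i) (C1 i)
  have key : 2 * √(c₀ + c₁ * X ^ 2) ≤ D := by
    set w := √(c₀ + c₁ * X ^ 2) with hw
    have w0 : 0 ≤ w := Real.sqrt_nonneg _
    have w2 : w ^ 2 = c₀ + c₁ * X ^ 2 := Real.sq_sqrt (v0 _)
    rcases w0.eq_or_lt with h | h
    · rw [← h]
      linarith
    · have h1 : ∀ i, 2 * (c₀ + c₁ * x i * X) ≤ w * C i := by
        intro i
        refine le_trans (le_abs_self _) (abs_le_of_sq_le_sq ?_ (mul_nonneg w0 (C0 i)))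
        rw [mul_pow w, w2, C2]
        nlinarith [mul_nonneg (mul_nonneg h₀ h₁) (sq_nonneg (x i - X))]
      have h2 : ∑ i, q i * (2 * (c₀ + c₁ * x i * X)) ≤ ∑ i, q i * (w * C i) :=
        Finset.sum_le_sum fun i _ => mul_le_mul_of_nonneg_left (h1 i) (q0 i)
      have h3 : ∑ i, q i * (2 * (c₀ + c₁ * x i * X)) = 2 * w ^ 2 := by
        have : ∀ i, q i * (2 * (c₀ + c₁ * x i * X)) = 2 * c₀ * q i + 2 * c₁ * X * (q i * x i) :=
          fun i => by ring
        simp only [this, Finset.sum_add_distrib, ← Finset.mul_sum, q1, ← hX, w2]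
        ring
      have h4 : ∑ i, q i * (w * C i) = w * D := by
        rw [hD, Finset.mul_sum]
        exact Finset.sum_congr rfl fun i _ => by ring
      rw [h3, h4] at h2
      nlinarith
  have m : E2 1 (c₀ + c₁ * X ^ 2) ≤ E2 1 (D ^ 2 / 4) := by
    refine E2_mono zero_le_one (v0 _) ?_ (by nlinarith)
    have := Real.sq_sqrt (v0 X)
    nlinarith [Real.sqrt_nonneg (c₀ + c₁ * X ^ 2)]
  refine m.trans ?_
  rw [E2_one, show 4 * (D ^ 2 / 4) = D ^ 2 by ring]
  refine J.trans (le_of_eq (Finset.sum_congr rfl fun i _ => ?_))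
  rw [E2_one, C2]

end Crest.Agent.R341
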