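import Crest.Agent.R341.Gad
import Crest.Agent.R341.Conv

/-! Ensembles and channels. -/

set_option autoImplicit false
set_option linter.unusedSectionVars false

namespace Crest.Agent.R341

open Matrix Crest.Quantum Real Crest.MathPhysics.AmpDamp
open scoped ComplexOrder Kronecker

variable {d e ι κ : Type*} [Fintype d] [DecidableEq d] [Fintype e] [DecidableEq e] [Fintype ι]
  [Fintype κ]

/-- ensembles over an arbitrary finite index type -/
def Ens (q : ι → ℝ) (ρ : ι → Matrix d d ℂ) : Prop :=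
  (∀ a, 0 ≤ q a) ∧ ∑ a, q a = 1 ∧ ∀ a, IsDensity (ρ a)

/-- Holevo information over an arbitrary finite index type -/
noncomputable def hol (Φ : Matrix d d ℂ → Matrix e e ℂ) (q : ι → ℝ) (ρ : ι → Matrix d d ℂ) : ℝ :=
  vnEntropy (∑ a, (q a : ℂ) • Φ (ρ a)) - ∑ a, q a * vnEntropy (Φ (ρ a))

theorem exists_fin (Φ : Matrix d d ℂ → Matrix e e ℂ) {q : ι → ℝ} {ρ : ι → Matrix d d ℂ}
    (h : Ens q ρ) : ∃ (m : ℕ) (q' : Fin m → ℝ) (ρ' : Fin m → Matrix d d ℂ),
      IsEnsemble q' ρ' ∧ holevoInfo Φ q' ρ' = hol Φ q ρ := by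
  let f := (Fintype.equivFin ι).symm
  refine ⟨_, q ∘ f, ρ ∘ f, ⟨fun a => h.1 _, ?_, fun a => h.2.2 _⟩, ?_⟩
  · rw [← h.2.1]
    exact Equiv.sum_comp f q
  · unfold holevoInfo hol
    rw [← Equiv.sum_comp f (fun a => (q a : ℂ) • Φ (ρ a)),
      ← Equiv.sum_comp f (fun a => q a * vnEntropy (Φ (ρ a)))]
    rfl

theorem ofReal_nonneg {c : ℝ} (hc : 0 ≤ c) : (0 : ℂ) ≤ (c : ℂ) := by exact_mod_cast hc

theorem density_avg {q : ι → ℝ} {ρ : ι → Matrix d d ℂ} (h : Ens q ρ) :
    IsDensity (∑ a, (q a : ℂ) • ρ a) := by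
  refine ⟨posSemidef_sum _ fun a _ => (h.2.2 a).1.smul (ofReal_nonneg (h.1 a)), ?_⟩
  rw [trace_sum]
  simp only [trace_smul, (h.2.2 _).2, smul_eq_mul, mul_one]
  exact_mod_cast h.2.1

section Channel

variable {Ψ : Matrix d d ℂ → Matrix e e ℂ}

theorem blockwise_psd (hΨ : IsChannel Ψ) {ρ : Matrix (Bool × d) (Bool × d) ℂ}
    (h : ρ.PosSemidef) : (blockwise Ψ ρ).PosSemidef := by
  have h1 := (hΨ.2.1 2 _ (h.submatrix (Prod.map finTwoEquiv id))).submatrix
    (Prod.map finTwoEquiv.symm id)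
  convert h1 using 1
  ext ⟨s, i⟩ ⟨t, j⟩
  simp only [blockwise, of_apply, submatrix_apply, Prod.map_fst, Prod.map_snd, id_eq]
  congr 1
  ext a b
  simp [block]

theorem block_blockwise (ρ : Matrix (Bool × d) (Bool × d) ℂ) (s t : Bool) :
    block (blockwise Ψ ρ) s t = Ψ (block ρ s t) := rfl

theorem chan_psd (hΨ : IsChannel Ψ) {X : Matrix d d ℂ} (h : X.PosSemidef) : (Ψ X).PosSemidef :=
  block_psd (blockwise_psd hΨ (h.submatrix (Prod.snd : Bool × d → d))) false

theorem chan_density (hΨ : IsChannel Ψ) {X : Matrix d d ℂ} (h : IsDensity X) : IsDensity (Ψ X) :=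
  ⟨chan_psd hΨ h.1, (hΨ.2.2 X).trans h.2⟩

theorem chan_sum (hΨ : IsChannel Ψ) (c : ι → ℂ) (X : ι → Matrix d d ℂ) :
    Ψ (∑ a, c a • X a) = ∑ a, c a • Ψ (X a) := by
  have := map_sum (IsLinearMap.mk' Ψ hΨ.1) (fun a => c a • X a) Finset.univ
  simpa only [map_smul, IsLinearMap.mk'_apply] using this

theorem cond_blockwise (hΨ : IsChannel Ψ) (u v : Bool → ℂ) (ρ : Matrix (Bool × d) (Bool × d) ℂ) :
    cond u v (blockwise Ψ ρ) = Ψ (cond u v ρ) := by
  simp only [cond, Fintype.sum_bool, block_blockwise, hΨ.1.map_add, hΨ.1.map_smul]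

theorem blockwise_density (hΨ : IsChannel Ψ) {ρ : Matrix (Bool × d) (Bool × d) ℂ}
    (h : IsDensity ρ) : IsDensity (blockwise Ψ ρ) := by
  refine ⟨blockwise_psd hΨ h.1, ?_⟩
  rw [trace_eq_blocks, block_blockwise, block_blockwise, hΨ.2.2, hΨ.2.2, ← trace_eq_blocks, h.2]

theorem tensor_eq (γ ν : ℝ) (ρ : Matrix (Bool × d) (Bool × d) ℂ) :
    qubitTensor (gadMap γ ν) Ψ ρ = gadT γ ν (blockwise Ψ ρ) := rfl

end Channel

theorem trace_ofReal_re {X : Matrix d d ℂ} (h : X.PosSemidef) : ((X.trace.re : ℝ) : ℂ) = X.trace :=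
  Complex.ext (by simp) (by simp [(Complex.nonneg_iff.1 h.trace_nonneg).2])

theorem exists_density_smul [Nonempty d] {τ : Matrix d d ℂ} (h : τ.PosSemidef) :
    ∃ σ : Matrix d d ℂ, IsDensity σ ∧ τ = ((τ.trace.re : ℝ) : ℂ) • σ := by
  rw [trace_ofReal_re h]
  by_cases h0 : τ.trace = 0
  · obtain ⟨i⟩ := ‹Nonempty d›
    refine ⟨diagonal (Pi.single i 1), ⟨PosSemidef.diagonal ?_, by simp⟩, ?_⟩
    · intro j
      by_cases hj : j = i
      · subst hj
        simp
      · simp [hj]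
    · rw [h0, zero_smul]
      exact h.trace_eq_zero_iff.1 h0
  · refine ⟨τ.trace⁻¹ • τ, ⟨h.smul ?_, ?_⟩, ?_⟩
    · rw [← trace_ofReal_re h, ← Complex.ofReal_inv]
      exact ofReal_nonneg (inv_nonneg.2 (Complex.nonneg_iff.1 h.trace_nonneg).1)
    · rw [trace_smul, smul_eq_mul, inv_mul_cancel₀ h0]
    · rw [smul_smul, mul_inv_cancel₀ h0, one_smul]

theorem pop_mem {M : Matrix (Bool × e) (Bool × e) ℂ} (hM : IsDensity M) :
    (block M true true).trace.re ∈ Set.Icc (0 : ℝ) 1 ∧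
      (block M false false).trace.re = 1 - (block M true true).trace.re := by
  have p0 := (Complex.nonneg_iff.1 (block_psd hM.1 true).trace_nonneg).1
  have q0 := (Complex.nonneg_iff.1 (block_psd hM.1 false).trace_nonneg).1
  have := congrArg Complex.re (trace_eq_blocks M)
  rw [hM.2, Complex.add_re, Complex.one_re] at this
  exact ⟨⟨p0, by linarith⟩, by linarith⟩

theorem lower_bound [Nonempty d] {γ ν : ℝ} (hγ : γ ∈ Set.Icc (0 : ℝ) 1)
    (hν : ν ∈ Set.Icc (0 : ℝ) 1) {Ψ : Matrix d d ℂ → Matrix e e ℂ} (hΨ : IsChannel Ψ)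
    {ρ : Matrix (Bool × d) (Bool × d) ℂ} (hρ : IsDensity ρ) :
    ∃ (w : Bool × Fin 3 → ℝ) (σ : Bool × Fin 3 → Matrix d d ℂ), Ens w σ ∧
      ∑ k, (w k : ℂ) • σ k = block ρ false false + block ρ true true ∧
      E2 1 (vv γ ν (block ρ true true).trace.re) + ∑ k, w k * vnEntropy (Ψ (σ k)) ≤
        vnEntropy (qubitTensor (gadMap γ ν) Ψ ρ) := by
  obtain ⟨u, hu, h⟩ := gadT_lower hγ hν (blockwise_density hΨ hρ)
  have hp := fun k : Bool × Fin 3 => cond_psd (u k.1 k.2) hρ.1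
  choose σ hσ hσ' using fun k => exists_density_smul (hp k)
  have t0 := fun k => (Complex.nonneg_iff.1 (hp k).trace_nonneg).1
  have hs : ∀ c, ∑ j, cond (u c j) (u c j) ρ = block ρ false false + block ρ true true := by
    intro c
    unfold cond
    rw [Finset.sum_comm]
    conv_lhs => enter [2, s]; rw [Finset.sum_comm]
    simp only [← Finset.sum_smul, hu]
    simp [add_comm]
  have hsum : ∑ k : Bool × Fin 3, ((1 / 2 * (cond (u k.1 k.2) (u k.1 k.2) ρ).trace.re : ℝ) : ℂ) •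
      σ k = block ρ false false + block ρ true true := by
    simp only [Complex.ofReal_mul, mul_smul, ← hσ']
    rw [← Finset.smul_sum, Fintype.sum_prod_type]
    simp only [hs, Fintype.sum_bool]
    rw [← two_smul ℂ, smul_smul]
    norm_num
  refine ⟨fun k => 1 / 2 * (cond (u k.1 k.2) (u k.1 k.2) ρ).trace.re, σ,
    ⟨fun k => mul_nonneg (by norm_num) (t0 k), ?_, hσ⟩, hsum, ?_⟩
  · have := congrArg (fun X => X.trace.re) hsum
    simp only [trace_sum, trace_smul, (hσ _).2, smul_eq_mul, mul_one, trace_add,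
      ← trace_eq_blocks, hρ.2, Complex.re_sum, Complex.ofReal_re, Complex.one_re] at this
    exact this
  · rw [block_blockwise, hΨ.2.2] at h
    rw [tensor_eq]
    refine le_trans (le_of_eq ?_) h
    congr 1
    rw [Fintype.sum_prod_type]
    refine Finset.sum_congr rfl fun c _ => Finset.sum_congr rfl fun j _ => ?_
    have hd := chan_density hΨ (hσ (c, j))
    rw [cond_blockwise hΨ, hΨ.2.2]
    conv_rhs => enter [2, 1]; rw [hσ' (c, j), hΨ.1.map_smul, S_smul hd.1 (t0 (c, j)), hd.2]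
    simp only [Complex.one_re]
    ring

theorem upper_bound {X : Matrix (Bool × e) (Bool × e) ℂ} (hX : IsDensity X) :
    vnEntropy X ≤ binEntropy (block X true true).trace.re +
      vnEntropy (block X false false + block X true true) := by
  let Z : Matrix Bool Bool ℂ := Matrix.of fun s t => if s then (if t then -1 else 0) else
    (if t then 0 else 1)
  have hZ : Zᴴ * Z = 1 := by
    ext (_ | _) (_ | _) <;> simp [Z, mul_apply]
  have hZX : IsDensity (kr Z X) := by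
    have := density_kr_add (K₀ := Z) (K₁ := 0) (by simp [hZ]) hX
    simpa [kr] using this
  have h1 := S_mid_ge hX hZX
  have e1 : ((1 / 2 : ℝ) : ℂ) • X + ((1 / 2 : ℝ) : ℂ) • kr Z X =
      (fromBlocks (block X false false) 0 0 (block X true true)).submatrix
        (Equiv.boolProdEquivSum e) (Equiv.boolProdEquivSum e) := by
    ext ⟨_ | _, i⟩ ⟨_ | _, j⟩ <;>
      simp [kr_apply, cond, Z, block, Equiv.boolProdEquivSum] <;> ring
  have p0 := block_psd hX.1 false
  have p1 := block_psd hX.1 true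
  rw [e1, S_submatrix (psd_fromBlocks_diag p0 p1), S_fromBlocks p0 p1, S_kr hZ hX.1] at h1
  have h2 := S_add_ge p0 p1
  rw [(pop_mem hX).2, sub_add_cancel, negMulLog_one] at h2
  rw [binEntropy_eq_negMulLog_add_negMulLog_one_sub]
  linarith

theorem gadT_trace (γ ν : ℝ) (N : Matrix (Bool × e) (Bool × e) ℂ) :
    block (gadT γ ν N) false false + block (gadT γ ν N) true true =
      block N false false + block N true true := by
  ext i j
  simp [gadT, block, qubitCoeff, gadMap, single_apply]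
  ring

theorem gadT_pop (γ ν : ℝ) (N : Matrix (Bool × e) (Bool × e) ℂ) :
    block (gadT γ ν N) true true =
      ((γ * ν : ℝ) : ℂ) • block N false false + ((1 - γ + γ * ν : ℝ) : ℂ) • block N true true := by
  ext i j
  simp [gadT, block, qubitCoeff, gadMap, single_apply]
  ring

theorem block_sum (c : ι → ℂ) (X : ι → Matrix (Bool × e) (Bool × e) ℂ) (s t : Bool) :
    block (∑ a, c a • X a) s t = ∑ a, c a • block (X a) s t := by
  ext i j
  simp [block, Matrix.sum_apply]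

theorem tensor_density {γ ν : ℝ} (hγ : γ ∈ Set.Icc (0 : ℝ) 1)
    (hν : ν ∈ Set.Icc (0 : ℝ) 1) {Ψ : Matrix d d ℂ → Matrix e e ℂ} (hΨ : IsChannel Ψ)
    {ρ : Matrix (Bool × d) (Bool × d) ℂ} (hρ : IsDensity ρ) :
    IsDensity (qubitTensor (gadMap γ ν) Ψ ρ) := by
  have h := blockwise_density hΨ hρ
  rw [tensor_eq]
  refine ⟨gadT_density hγ hν h.1, ?_⟩
  rw [trace_eq_blocks (gadT γ ν _), ← trace_add, gadT_trace, trace_add, ← trace_eq_blocks, h.2]

theorem main_upper [Nonempty d] {γ ν : ℝ} (hγ : γ ∈ Set.Icc (0 : ℝ) 1)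
    (hν : ν ∈ Set.Icc (0 : ℝ) 1) {Ψ : Matrix d d ℂ → Matrix e e ℂ} (hΨ : IsChannel Ψ)
    {q : ι → ℝ} {ρ : ι → Matrix (Bool × d) (Bool × d) ℂ} (h : Ens q ρ) :
    ∃ (p : ι → ℝ) (w : ι × (Bool × Fin 3) → ℝ) (σ : ι × (Bool × Fin 3) → Matrix d d ℂ),
      (∀ a, p a ∈ Set.Icc (0 : ℝ) 1) ∧ Ens w σ ∧
      hol (qubitTensor (gadMap γ ν) Ψ) q ρ ≤
        (binEntropy ((1 - γ) * (∑ a, q a * p a) + γ * ν) - ∑ a, q a * E2 1 (vv γ ν (p a))) +
          hol Ψ w σ := by
  choose w σ h1 h2 h3 using fun a => lower_bound hγ hν hΨ (h.2.2 a)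
  refine ⟨fun a => (block (ρ a) true true).trace.re, fun k => q k.1 * w k.1 k.2,
    fun k => σ k.1 k.2, fun a => (pop_mem (h.2.2 a)).1,
    ⟨fun k => mul_nonneg (h.1 _) ((h1 _).1 _), ?_, fun k => (h1 _).2.2 _⟩, ?_⟩
  · rw [Fintype.sum_prod_type]
    simp only [← Finset.mul_sum, (h1 _).2.1, mul_one, h.2.1]
  have hE : Ens q fun a => qubitTensor (gadMap γ ν) Ψ (ρ a) :=
    ⟨h.1, h.2.1, fun a => tensor_density hγ hν hΨ (h.2.2 a)⟩
  have ub := upper_bound (density_avg hE)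
  have e1 : block (∑ a, (q a : ℂ) • qubitTensor (gadMap γ ν) Ψ (ρ a)) false false +
      block (∑ a, (q a : ℂ) • qubitTensor (gadMap γ ν) Ψ (ρ a)) true true =
      ∑ k : ι × (Bool × Fin 3), ((q k.1 * w k.1 k.2 : ℝ) : ℂ) • Ψ (σ k.1 k.2) := by
    rw [block_sum, block_sum, ← Finset.sum_add_distrib, Fintype.sum_prod_type]
    refine Finset.sum_congr rfl fun a _ => ?_
    rw [← smul_add, tensor_eq, gadT_trace, block_blockwise, block_blockwise, ← hΨ.1.map_add,
      ← h2, chan_sum hΨ, Finset.smul_sum]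
    simp only [Complex.ofReal_mul, mul_smul]
  have e2 : (block (∑ a, (q a : ℂ) • qubitTensor (gadMap γ ν) Ψ (ρ a)) true true).trace.re =
      (1 - γ) * (∑ a, q a * (block (ρ a) true true).trace.re) + γ * ν := by
    rw [block_sum, trace_sum, Complex.re_sum]
    have : ∀ a, ((q a : ℂ) • block (qubitTensor (gadMap γ ν) Ψ (ρ a)) true true).trace.re =
        (1 - γ) * (q a * (block (ρ a) true true).trace.re) + γ * ν * q a := by
      intro a
      rw [tensor_eq, gadT_pop, block_blockwise, block_blockwise, trace_smul, trace_add, trace_smul,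
        trace_smul, hΨ.2.2, hΨ.2.2]
      simp only [smul_eq_mul, Complex.re_ofReal_mul, Complex.add_re, (pop_mem (h.2.2 a)).2]
      ring
    simp only [this, Finset.sum_add_distrib, ← Finset.mul_sum, h.2.1, mul_one]
  rw [e1, e2] at ub
  have lb : ∑ a, q a * E2 1 (vv γ ν (block (ρ a) true true).trace.re) +
      ∑ k : ι × (Bool × Fin 3), q k.1 * w k.1 k.2 * vnEntropy (Ψ (σ k.1 k.2)) ≤
      ∑ a, q a * vnEntropy (qubitTensor (gadMap γ ν) Ψ (ρ a)) := by
    rw [Fintype.sum_prod_type, ← Finset.sum_add_distrib]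
    refine Finset.sum_le_sum fun a _ => ?_
    simp only [mul_assoc, ← Finset.mul_sum, ← mul_add]
    exact mul_le_mul_of_nonneg_left (h3 a) (h.1 a)
  unfold hol
  linarith

end Crest.Agent.R341
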