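import Crest.Agent.R341.DetIneq

/-! The block determinant inequality. -/

set_option autoImplicit false
set_option linter.unusedSectionVars false

namespace Crest.Agent.R341

open Matrix Filter Topology
open scoped ComplexOrder

variable {m n : Type*} [Fintype m] [DecidableEq m] [Fintype n] [DecidableEq n]

theorem posDef_fromBlocks_diag {X : Matrix m m ℂ} {Y : Matrix n n ℂ} (hX : X.PosDef)
    (hY : Y.PosDef) : (fromBlocks X 0 0 Y).PosDef := by
  rw [(psd_fromBlocks_diag hX.posSemidef hY.posSemidef).posDef_iff_det_ne_zero,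
    det_fromBlocks_zero₂₁]
  exact mul_ne_zero hX.det_pos.ne' hY.det_pos.ne'

theorem trace_fromBlocks (A : Matrix m m ℂ) (B : Matrix m n ℂ) (C : Matrix n m ℂ)
    (D : Matrix n n ℂ) : (fromBlocks A B C D).trace = A.trace + D.trace := by
  simp [trace, Fintype.sum_sum_type]

theorem diag_re {P : Matrix n n ℂ} (hP : P.PosSemidef) (i : n) : (((P i i).re : ℝ) : ℂ) = P i i := by
  have := Complex.nonneg_iff.1 (hP.diag_nonneg (i := i))
  exact Complex.ext (by simp) (by simp [this.2])

theorem det_block_ineq {P Q : Matrix n n ℂ} (hP : P.PosDef) (hQ : Q.PosDef) (κ : n → ℝ) :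
    ∑ i, Real.log (1 + κ i ^ 2 / ((P i i).re * (Q i i).re)) ≤
      Real.log ‖(fromBlocks P (-diagonal fun i => ((κ i : ℝ) : ℂ))
        (diagonal fun i => ((κ i : ℝ) : ℂ)) Q).det‖ - Real.log ‖P.det‖ - Real.log ‖Q.det‖ := by
  set p : n → ℝ := fun i => (P i i).re with hp
  set q : n → ℝ := fun i => (Q i i).re with hq
  have p0 : ∀ i, 0 < p i := fun i => (Complex.pos_iff.1 (hP.diag_pos (i := i))).1
  have q0 : ∀ i, 0 < q i := fun i => (Complex.pos_iff.1 (hQ.diag_pos (i := i))).1
  have pP : ∀ i, P i i = p i := fun i => (diag_re hP.posSemidef i).symm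
  have qQ : ∀ i, Q i i = q i := fun i => (diag_re hQ.posSemidef i).symm
  have p1 : ∀ i, ((p i : ℝ) : ℂ) ≠ 0 := fun i => by exact_mod_cast (p0 i).ne'
  have q1 : ∀ i, ((q i : ℝ) : ℂ) ≠ 0 := fun i => by exact_mod_cast (q0 i).ne'
  set δ : n → ℝ := fun i => p i * q i + κ i ^ 2 with hδ
  have δ0 : ∀ i, 0 < δ i := fun i => by have := p0 i; have := q0 i; positivity
  have δ1 : ∀ i, ((p i : ℝ) : ℂ) * q i + (κ i : ℂ) ^ 2 ≠ 0 := fun i => by
    exact_mod_cast (δ0 i).ne'
  set K : Matrix n n ℂ := diagonal fun i => ((κ i : ℝ) : ℂ) with hK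
  set Dp : Matrix n n ℂ := diagonal fun i => ((p i : ℝ) : ℂ) with hDp
  set Dq : Matrix n n ℂ := diagonal fun i => ((q i : ℝ) : ℂ) with hDq
  have hDp' : Dp.PosDef := PosDef.diagonal fun i => by simpa using p0 i
  have hDq' : Dq.PosDef := PosDef.diagonal fun i => by simpa using q0 i
  have hKh : Kᴴ = K := by
    rw [hK, diagonal_conjTranspose]
    congr 1
    ext i
    simp
  have hJ : (fromBlocks 0 (-K) K 0)ᴴ = -fromBlocks 0 (-K) K (0 : Matrix n n ℂ) := by
    rw [fromBlocks_conjTranspose, fromBlocks_neg]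
    simp [hKh]
  have e0 : fromBlocks Dp 0 0 Dq + fromBlocks 0 (-K) K 0 = fromBlocks Dp (-K) K Dq := by
    rw [fromBlocks_add]
    simp
  have e1 : fromBlocks P 0 0 Q + fromBlocks 0 (-K) K 0 = fromBlocks P (-K) K Q := by
    rw [fromBlocks_add]
    simp
  have eH : fromBlocks P 0 0 Q - fromBlocks Dp 0 0 Dq = fromBlocks (P - Dp) 0 0 (Q - Dq) := by
    rw [sub_eq_add_neg, fromBlocks_neg, fromBlocks_add]
    simp [sub_eq_add_neg]
  have i0 : (fromBlocks Dp 0 0 Dq)⁻¹ = fromBlocks (diagonal fun i => ((p i : ℝ) : ℂ)⁻¹) 0 0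
      (diagonal fun i => ((q i : ℝ) : ℂ)⁻¹) := by
    refine inv_eq_right_inv ?_
    rw [fromBlocks_multiply, ← fromBlocks_one]
    simp [hDp, hDq, diagonal_mul_diagonal, p1, q1]
  have i1 : (fromBlocks Dp (-K) K Dq)⁻¹ = fromBlocks (diagonal fun i => ((q i / δ i : ℝ) : ℂ))
      (diagonal fun i => ((κ i / δ i : ℝ) : ℂ)) (-diagonal fun i => ((κ i / δ i : ℝ) : ℂ))
      (diagonal fun i => ((p i / δ i : ℝ) : ℂ)) := by
    refine inv_eq_right_inv ?_
    rw [fromBlocks_multiply, ← fromBlocks_one]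
    simp only [hDp, hDq, hK, diagonal_mul_diagonal,
      diagonal_neg, diagonal_add, ← diagonal_one, ← diagonal_zero]
    congr 2 <;> ext i <;> have := δ1 i <;> simp only [hδ] <;> push_cast <;> field_simp <;> ring
  have tz : ∀ (a : n → ℂ) (X : Matrix n n ℂ) (x : n → ℂ), (∀ i, X i i = x i) →
      (diagonal a * (X - diagonal x)).trace = 0 := by
    intro a X x hx
    simp [trace, diagonal_mul, hx]
  have key := logdet_mono (posDef_fromBlocks_diag hDp' hDq') (posDef_fromBlocks_diag hP hQ) hJ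
    (by
      rw [e0, eH, i0, i1, fromBlocks_multiply, fromBlocks_multiply]
      simp only [Matrix.mul_zero, Matrix.zero_mul, add_zero, zero_add, trace_fromBlocks]
      rw [tz _ _ _ pP, tz _ _ _ pP, tz _ _ _ qQ, tz _ _ _ qQ])
  rw [e0, e1, det_fromBlocks_zero₂₁, det_fromBlocks_zero₂₁, norm_mul, norm_mul,
    Real.log_mul (norm_ne_zero_iff.2 hP.det_pos.ne') (norm_ne_zero_iff.2 hQ.det_pos.ne')] at key
  have f0 : fromBlocks Dp (-K) K Dq =
      fromBlocks 1 0 (diagonal fun i => ((κ i / p i : ℝ) : ℂ)) 1 *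
        fromBlocks Dp (-K) 0 (diagonal fun i => ((δ i / p i : ℝ) : ℂ)) := by
    rw [fromBlocks_multiply]
    simp only [hDp, hDq, hK, diagonal_mul_diagonal, Matrix.one_mul,
      Matrix.zero_mul, Matrix.mul_zero, add_zero,
      diagonal_neg, diagonal_add]
    congr 2
    · ext i
      have := p1 i
      push_cast
      field_simp
    · ext i
      have := p1 i
      simp only [hδ]
      push_cast
      field_simp
      ring
  have f1 : ‖(fromBlocks Dp (-K) K Dq).det‖ = ∏ i, δ i := by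
    rw [f0, det_mul, det_fromBlocks_zero₁₂, det_fromBlocks_zero₂₁, det_one, hDp, det_diagonal,
      det_diagonal, one_mul, one_mul, ← Finset.prod_mul_distrib, norm_prod]
    refine Finset.prod_congr rfl fun i _ => ?_
    rw [← Complex.ofReal_mul, Complex.norm_real, mul_div_cancel₀ _ (p0 i).ne',
      Real.norm_of_nonneg (δ0 i).le]
  have f2 : ‖Dp.det‖ * ‖Dq.det‖ = ∏ i, (p i * q i) := by
    rw [hDp, hDq, det_diagonal, det_diagonal, norm_prod, norm_prod, ← Finset.prod_mul_distrib]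
    refine Finset.prod_congr rfl fun i _ => ?_
    rw [Complex.norm_real, Complex.norm_real, Real.norm_of_nonneg (p0 i).le,
      Real.norm_of_nonneg (q0 i).le]
  rw [f1, f2, Real.log_prod (fun i _ => (δ0 i).ne'),
    Real.log_prod (fun i _ => (mul_pos (p0 i) (q0 i)).ne'), ← Finset.sum_sub_distrib] at key
  refine le_trans (le_of_eq ?_) (key.trans (le_of_eq (by ring)))
  refine Finset.sum_congr rfl fun i _ => ?_
  rw [← Real.log_div (δ0 i).ne' (mul_pos (p0 i) (q0 i)).ne']
  congr 1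
  have := p0 i
  have := q0 i
  change 1 + κ i ^ 2 / (p i * q i) = (p i * q i + κ i ^ 2) / (p i * q i)
  field_simp

end Crest.Agent.R341
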