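import Crest.Agent.R341.SVD

/-! The determinant inequality: `D ↦ log |det (D + J)| - log det D` is convex on positive definite
matrices for a fixed skew-Hermitian `J`. -/

set_option autoImplicit false
set_option linter.unusedSectionVars false

namespace Crest.Agent.R341

open Matrix Filter Topology
open scoped ComplexOrder

variable {m n : Type*} [Fintype m] [DecidableEq m] [Fintype n] [DecidableEq n]

theorem hasDerivAt_det (N H : Matrix m m ℂ) (s : ℝ) (hN : (N + (s : ℂ) • H).det ≠ 0) :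
    HasDerivAt (fun r : ℝ => (N + (r : ℂ) • H).det)
      ((N + (s : ℂ) • H).det * ((N + (s : ℂ) • H)⁻¹ * H).trace) s := by
  set M := N + (s : ℂ) • H with hM
  set X := M⁻¹ * H with hX
  set q := (det (1 + (Polynomial.X : Polynomial ℂ) • X.map Polynomial.C)).divX.divX
  have h1 : ∀ z : ℂ, (N + z • H).det = M.det * (1 + X.trace * (z - s) + q.eval (z - s) * (z - s) ^ 2)
      := by
    intro z
    rw [← det_one_add_smul, ← det_mul, Matrix.mul_add, Matrix.mul_one, Matrix.mul_smul, hX,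
      Matrix.mul_nonsing_inv_cancel_left _ _ (Ne.isUnit hN), hM, add_assoc, ← add_smul]
    congr 3
    ring
  have h2 : HasDerivAt (fun z : ℂ => (N + z • H).det) (M.det * X.trace) (s : ℂ) := by
    simp only [h1]
    refine HasDerivAt.const_mul _ ?_
    have a1 : HasDerivAt (fun z : ℂ => z - s) 1 (s : ℂ) := (hasDerivAt_id _).sub_const _
    have a2 : HasDerivAt (fun z : ℂ => q.eval (z - s)) (q.derivative.eval ((s : ℂ) - s) * 1)
        (s : ℂ) := (q.hasDerivAt _).comp (s : ℂ) a1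
    have a3 := ((a1.const_mul X.trace).const_add 1).fun_add (a2.fun_mul (a1.fun_pow 2))
    exact a3.congr_deriv (by simp)
  exact h2.comp_ofReal

theorem hasDerivAt_log_norm {f : ℝ → ℂ} {s : ℝ} {τ : ℂ} (hf : HasDerivAt f (f s * τ) s)
    (h0 : f s ≠ 0) : HasDerivAt (fun r => Real.log ‖f r‖) τ.re s := by
  have h1 : HasDerivAt (fun r => f r / f s) τ s :=
    (hf.div_const (f s)).congr_deriv (by field_simp)
  have h2 := h1.clog_real (by simp [h0])
  have h3 := Complex.reCLM.hasFDerivAt.comp_hasDerivAt s h2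
  have h4 : HasDerivAt (fun r => Real.log ‖f r / f s‖ + Real.log ‖f s‖) τ.re s := by
    refine HasDerivAt.add_const _ ?_
    simpa [Function.comp_def, Complex.log_re, h0] using h3
  refine h4.congr_of_eventuallyEq ?_
  filter_upwards [hf.continuousAt.eventually_ne h0] with r hr
  rw [norm_div, Real.log_div (norm_ne_zero_iff.2 hr) (norm_ne_zero_iff.2 h0)]
  ring

theorem trace_mul_nonneg {A B : Matrix m m ℂ} (hA : A.PosSemidef) (hB : B.PosSemidef) :
    0 ≤ (A * B).trace.re := by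
  obtain ⟨V, rfl⟩ := exists_factor hA
  rw [Matrix.mul_assoc, trace_mul_comm]
  exact (Complex.nonneg_iff.1 (hB.conjTranspose_mul_mul_same V).trace_nonneg).1

theorem det_add_skew_ne_zero {D J : Matrix m m ℂ} (hD : D.PosDef) (hJ : Jᴴ = -J) :
    (D + J).det ≠ 0 := by
  intro h
  obtain ⟨v, hv, h0⟩ := exists_mulVec_eq_zero_iff.2 h
  have h1 : star v ⬝ᵥ ((D + J) *ᵥ v) = 0 := by rw [h0, dotProduct_zero]
  rw [add_mulVec, dotProduct_add] at h1
  have h2 : star (star v ⬝ᵥ (J *ᵥ v)) = -(star v ⬝ᵥ (J *ᵥ v)) := by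
    conv_lhs => rw [star_dotProduct, star_star, star_mulVec, ← dotProduct_mulVec, hJ, neg_mulVec,
      dotProduct_neg]
  have h3 := hD.re_dotProduct_pos hv
  have h4 := congrArg Complex.re h2
  have h5 := congrArg Complex.re h1
  simp only [RCLike.star_def, Complex.conj_re, Complex.neg_re, Complex.add_re, Complex.zero_re,
    RCLike.re_to_complex] at h3 h4 h5
  linarith

theorem inv_sub_psd {D J : Matrix m m ℂ} (hD : D.PosDef) (hJ : Jᴴ = -J) :
    (D⁻¹ - ((D + J)⁻¹)ᴴ * D * (D + J)⁻¹).PosSemidef := by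
  set E := (D + J)⁻¹ with hE
  have h1 : (D + J) * E = 1 := mul_nonsing_inv _ (det_add_skew_ne_zero hD hJ).isUnit
  have h1' : Eᴴ * (D - J) = 1 := by
    have := congrArg conjTranspose h1
    rwa [conjTranspose_mul, conjTranspose_add, hD.1.eq, hJ, conjTranspose_one,
      ← sub_eq_add_neg] at this
  have d1 : D * D⁻¹ = 1 := mul_nonsing_inv _ hD.det_pos.ne'.isUnit
  have d2 : D⁻¹ * D = 1 := nonsing_inv_mul _ hD.det_pos.ne'.isUnit
  have key : D⁻¹ - Eᴴ * D * E = (J * E)ᴴ * D⁻¹ * (J * E) := by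
    have e1 : D⁻¹ = Eᴴ * (D - J) * D⁻¹ * ((D + J) * E) := by rw [h1, h1']; simp
    have e2 : (D - J) * D⁻¹ * (D + J) = D - J * D⁻¹ * J := by
      rw [Matrix.sub_mul, d1, Matrix.mul_add, Matrix.sub_mul, Matrix.sub_mul, Matrix.mul_assoc J,
        d2]
      simp
    calc D⁻¹ - Eᴴ * D * E = Eᴴ * ((D - J) * D⁻¹ * (D + J)) * E - Eᴴ * D * E := by
          conv_lhs => rw [e1]
          simp only [Matrix.mul_assoc]
      _ = (J * E)ᴴ * D⁻¹ * (J * E) := by
          rw [e2, conjTranspose_mul, hJ]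
          simp only [Matrix.mul_sub, Matrix.sub_mul, Matrix.mul_assoc, Matrix.mul_neg,
            Matrix.neg_mul]
          abel
  rw [key]
  exact hD.inv.posSemidef.conjTranspose_mul_mul_same _

theorem trace_ineq {D₀ D₁ J H : Matrix m m ℂ} (h₀ : D₀.PosDef) (h₁ : D₁.PosDef) (hJ : Jᴴ = -J)
    (hH : H.IsHermitian) :
    ((D₁ + J)⁻¹ * H * (D₀ + J)⁻¹ * H).trace.re ≤ (D₁⁻¹ * H * D₀⁻¹ * H).trace.re := by
  have p₀ := inv_sub_psd h₀ hJ
  have p₁ := inv_sub_psd h₁ hJ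
  set E₀ := (D₀ + J)⁻¹
  set E₁ := (D₁ + J)⁻¹
  have a1 : D₀ * D₀⁻¹ = 1 := mul_nonsing_inv _ h₀.det_pos.ne'.isUnit
  have a2 : D₀⁻¹ * D₀ = 1 := nonsing_inv_mul _ h₀.det_pos.ne'.isUnit
  have b1 : D₁ * D₁⁻¹ = 1 := mul_nonsing_inv _ h₁.det_pos.ne'.isUnit
  have b2 : D₁⁻¹ * D₁ = 1 := nonsing_inv_mul _ h₁.det_pos.ne'.isUnit
  set U := E₁ * H with hU
  set W := D₁⁻¹ * H * E₀ᴴ * D₀ with hW
  have hWc : Wᴴ = D₀ * E₀ * H * D₁⁻¹ := by
    rw [hW]
    simp only [conjTranspose_mul, conjTranspose_conjTranspose, hH.eq, h₀.1.eq, h₁.inv.1.eq,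
      Matrix.mul_assoc]
  have hUc : Uᴴ = H * E₁ᴴ := by rw [hU, conjTranspose_mul, hH.eq]
  have t1 := trace_mul_nonneg (h₁.posSemidef.conjTranspose_mul_mul_same (U - W))
    h₀.inv.posSemidef
  have t2 := trace_mul_nonneg (p₁.conjTranspose_mul_mul_same H) h₀.inv.posSemidef
  have t3 := trace_mul_nonneg p₀ (h₁.inv.posSemidef.conjTranspose_mul_mul_same H)
  rw [hH.eq] at t2 t3
  have c1 : (Wᴴ * D₁ * U * D₀⁻¹).trace = (E₁ * H * E₀ * H).trace := by
    rw [hWc, hU]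
    calc (D₀ * E₀ * H * D₁⁻¹ * D₁ * (E₁ * H) * D₀⁻¹).trace
        = ((D₀ * E₀ * H * (D₁⁻¹ * D₁) * (E₁ * H)) * D₀⁻¹).trace := by
          simp only [Matrix.mul_assoc]
      _ = ((D₀⁻¹ * D₀) * (E₀ * H) * (E₁ * H)).trace := by
          rw [trace_mul_comm, b2]
          simp only [Matrix.mul_assoc, Matrix.mul_one]
      _ = _ := by
          rw [a2, Matrix.one_mul, trace_mul_comm]
          simp only [Matrix.mul_assoc]
  have c2 : (Uᴴ * D₁ * W * D₀⁻¹).trace = star (E₁ * H * E₀ * H).trace := by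
    rw [← c1, ← trace_conjTranspose]
    simp only [conjTranspose_mul, conjTranspose_conjTranspose, h₁.1.eq, h₀.inv.1.eq]
    rw [trace_mul_comm]
    simp only [Matrix.mul_assoc]
  have c3 : (Wᴴ * D₁ * W * D₀⁻¹).trace = (E₀ᴴ * D₀ * E₀ * (H * D₁⁻¹ * H)).trace := by
    rw [hWc, hW]
    calc (D₀ * E₀ * H * D₁⁻¹ * D₁ * (D₁⁻¹ * H * E₀ᴴ * D₀) * D₀⁻¹).trace
        = ((D₀ * E₀ * H * (D₁⁻¹ * D₁) * D₁⁻¹ * H) * (E₀ᴴ * (D₀ * D₀⁻¹))).trace := by
          simp only [Matrix.mul_assoc]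
      _ = _ := by
          rw [trace_mul_comm, b2, a1]
          simp only [Matrix.mul_assoc, Matrix.mul_one]
  have c4 : (Uᴴ * D₁ * U * D₀⁻¹).trace = (H * (E₁ᴴ * D₁ * E₁) * H * D₀⁻¹).trace := by
    rw [hUc, hU]
    simp only [Matrix.mul_assoc]
  have c5 : (H * D₁⁻¹ * H * D₀⁻¹).trace = (D₁⁻¹ * H * D₀⁻¹ * H).trace := by
    rw [trace_mul_comm (D₁⁻¹ * H * D₀⁻¹)]
    simp only [Matrix.mul_assoc]
  have c6 : (D₀⁻¹ * (H * D₁⁻¹ * H)).trace = (D₁⁻¹ * H * D₀⁻¹ * H).trace := by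
    rw [trace_mul_comm, c5]
  simp only [conjTranspose_sub, Matrix.sub_mul, Matrix.mul_sub, trace_sub, c1, c2, c3, c4, c5, c6,
    Complex.sub_re, RCLike.star_def, Complex.conj_re] at t1 t2 t3
  linarith

theorem logdet_mono {D₀ D₁ J : Matrix m m ℂ} (h₀ : D₀.PosDef) (h₁ : D₁.PosDef) (hJ : Jᴴ = -J)
    (h : (D₀⁻¹ * (D₁ - D₀)).trace.re ≤ ((D₀ + J)⁻¹ * (D₁ - D₀)).trace.re) :
    Real.log ‖(D₀ + J).det‖ - Real.log ‖D₀.det‖ ≤ Real.log ‖(D₁ + J).det‖ - Real.log ‖D₁.det‖ := by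
  set H := D₁ - D₀ with hH
  have hHh : H.IsHermitian := h₁.1.sub h₀.1
  have hpd : ∀ s ∈ Set.Icc (0 : ℝ) 1, (D₀ + (s : ℂ) • H).PosDef := by
    rintro s ⟨s0, s1⟩
    have e : D₀ + (s : ℂ) • H = ((1 - s : ℝ) : ℂ) • D₀ + (s : ℂ) • D₁ := by
      rw [hH, smul_sub]
      push_cast
      rw [sub_smul, one_smul]
      abel
    rw [e]
    rcases s1.lt_or_eq with s1 | s1
    · exact (h₀.smul (by exact_mod_cast sub_pos.2 s1)).add_posSemidef (h₁.posSemidef.smul (by simpa using s0))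
    · subst s1
      simpa using h₁
  have hre : ∀ s : ℝ, D₀ + J + (s : ℂ) • H = D₀ + (s : ℂ) • H + J := fun s => by abel
  let g : ℝ → ℝ := fun r =>
    Real.log ‖(D₀ + J + (r : ℂ) • H).det‖ - Real.log ‖(D₀ + (r : ℂ) • H).det‖
  let g' : ℝ → ℝ := fun r =>
    ((D₀ + J + (r : ℂ) • H)⁻¹ * H).trace.re - ((D₀ + (r : ℂ) • H)⁻¹ * H).trace.re
  have hd : ∀ s ∈ Set.Icc (0 : ℝ) 1, HasDerivAt g (g' s) s := by
    intro s hs
    have n1 : (D₀ + J + (s : ℂ) • H).det ≠ 0 := by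
      rw [hre]
      exact det_add_skew_ne_zero (hpd s hs) hJ
    have n2 : (D₀ + (s : ℂ) • H).det ≠ 0 := (hpd s hs).det_pos.ne'
    exact (hasDerivAt_log_norm (hasDerivAt_det _ _ s n1) n1).fun_sub
      (hasDerivAt_log_norm (hasDerivAt_det _ _ s n2) n2)
  obtain ⟨c, hc, hc'⟩ := exists_hasDerivAt_eq_slope g g' zero_lt_one
    (fun s hs => (hd s hs).continuousAt.continuousWithinAt)
    (fun s hs => hd s (Set.Ioo_subset_Icc_self hs))
  have hc1 := Set.Ioo_subset_Icc_self hc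
  have res : ∀ N : Matrix m m ℂ, N.det ≠ 0 → (N + (c : ℂ) • H).det ≠ 0 →
      ((N + (c : ℂ) • H)⁻¹ * H).trace.re =
        (N⁻¹ * H).trace.re - c * ((N + (c : ℂ) • H)⁻¹ * H * N⁻¹ * H).trace.re := by
    intro N n0 n1
    have e1 := nonsing_inv_mul _ n1.isUnit
    have e0 := mul_nonsing_inv _ n0.isUnit
    have e : (N + (c : ℂ) • H)⁻¹ = N⁻¹ - (c : ℂ) • ((N + (c : ℂ) • H)⁻¹ * H * N⁻¹) := by
      have : (N + (c : ℂ) • H)⁻¹ * (N + (c : ℂ) • H) * N⁻¹ = N⁻¹ := by rw [e1, Matrix.one_mul]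
      rw [Matrix.mul_add, Matrix.add_mul, Matrix.mul_assoc, e0, Matrix.mul_one,
        Matrix.mul_smul, Matrix.smul_mul] at this
      exact eq_sub_of_add_eq this
    conv_lhs => rw [e]
    rw [Matrix.sub_mul, Matrix.smul_mul, trace_sub, trace_smul]
    simp
  have r1 := res (D₀ + J) (det_add_skew_ne_zero h₀ hJ)
    (by rw [hre]; exact det_add_skew_ne_zero (hpd c hc1) hJ)
  have r2 := res D₀ h₀.det_pos.ne' (hpd c hc1).det_pos.ne'
  have ti := trace_ineq h₀ (hpd c hc1) hJ hHh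
  rw [← hre] at ti
  have hpos : 0 ≤ g' c := by
    simp only [g']
    rw [r1, r2]
    nlinarith [hc.1]
  rw [hc'] at hpos
  simp only [g, Complex.ofReal_zero, zero_smul, add_zero, Complex.ofReal_one, one_smul, sub_zero,
    div_one] at hpos
  have e1 : D₀ + J + H = D₁ + J := by rw [hH]; abel
  have e2 : D₀ + H = D₁ := by rw [hH]; abel
  rw [e1, e2] at hpos
  linarith

end Crest.Agent.R341
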