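import Mathlib

/-! A transfer principle: pointwise inequalities between sums of `log (1 + x / t)` integrate to
inequalities between sums of `-x log x`. -/

set_option autoImplicit false

namespace Crest.Agent.R341

open Set Filter Topology

/-- `g` "represents" the entropy-like number `s` with total mass `τ`. -/
def Rep (g : ℝ → ℝ) (τ s : ℝ) : Prop :=
  ∃ G : ℝ → ℝ, ContinuousOn G (Ici 0) ∧ (∀ t, 0 < t → HasDerivAt G (g t - τ / (t + 1)) t) ∧
    G 0 = -s ∧ Tendsto G atTop (𝓝 τ)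

theorem Rep.zero : Rep (fun _ => 0) 0 0 :=
  ⟨fun _ => 0, continuousOn_const, fun t _ => by simpa using hasDerivAt_const t (0 : ℝ), by simp,
    tendsto_const_nhds⟩

theorem Rep.add {g₁ g₂ : ℝ → ℝ} {τ₁ τ₂ s₁ s₂ : ℝ} (h₁ : Rep g₁ τ₁ s₁) (h₂ : Rep g₂ τ₂ s₂) :
    Rep (fun t => g₁ t + g₂ t) (τ₁ + τ₂) (s₁ + s₂) := by
  obtain ⟨G₁, c₁, d₁, z₁, l₁⟩ := h₁
  obtain ⟨G₂, c₂, d₂, z₂, l₂⟩ := h₂
  refine ⟨fun t => G₁ t + G₂ t, c₁.add c₂, fun t ht => ?_, by simp [z₁, z₂]; ring, l₁.add l₂⟩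
  exact ((d₁ t ht).fun_add (d₂ t ht)).congr_deriv (by ring)

theorem Rep.smul {g : ℝ → ℝ} {τ s : ℝ} (c : ℝ) (h : Rep g τ s) :
    Rep (fun t => c * g t) (c * τ) (c * s) := by
  obtain ⟨G, c₁, d, z, l⟩ := h
  refine ⟨fun t => c * G t, continuousOn_const.mul c₁, fun t ht => ?_, by simp [z],
    l.const_mul c⟩
  exact ((d t ht).const_mul c).congr_deriv (by ring)

theorem Rep.sub {g₁ g₂ : ℝ → ℝ} {τ₁ τ₂ s₁ s₂ : ℝ} (h₁ : Rep g₁ τ₁ s₁) (h₂ : Rep g₂ τ₂ s₂) :
    Rep (fun t => g₁ t - g₂ t) (τ₁ - τ₂) (s₁ - s₂) := by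
  have := h₁.add (h₂.smul (-1))
  simpa [sub_eq_add_neg] using this

theorem Rep.congr {g g' : ℝ → ℝ} {τ s τ' s' : ℝ} (h : Rep g τ s) (hg : ∀ t, 0 < t → g' t = g t)
    (hτ : τ' = τ) (hs : s' = s) : Rep g' τ' s' := by
  subst hτ hs
  obtain ⟨G, c₁, d, z, l⟩ := h
  exact ⟨G, c₁, fun t ht => by rw [hg t ht]; exact d t ht, z, l⟩

theorem Rep.sum {ι : Type*} (S : Finset ι) {g : ι → ℝ → ℝ} {τ s : ι → ℝ}
    (h : ∀ i ∈ S, Rep (g i) (τ i) (s i)) :
    Rep (fun t => ∑ i ∈ S, g i t) (∑ i ∈ S, τ i) (∑ i ∈ S, s i) := by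
  classical
  induction S using Finset.induction_on with
  | empty => simpa using Rep.zero
  | insert a S ha ih =>
    have h1 := (h a (Finset.mem_insert_self _ _)).add
      (ih fun i hi => h i (Finset.mem_insert_of_mem hi))
    exact h1.congr (fun t _ => Finset.sum_insert ha) (Finset.sum_insert ha) (Finset.sum_insert ha)

theorem Rep.le {g₁ g₂ : ℝ → ℝ} {τ₁ τ₂ s₁ s₂ : ℝ} (h₁ : Rep g₁ τ₁ s₁) (h₂ : Rep g₂ τ₂ s₂)
    (hτ : τ₁ = τ₂) (hg : ∀ t, 0 < t → g₁ t ≤ g₂ t) : s₁ ≤ s₂ := by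
  obtain ⟨G, c, d, z, l⟩ := h₂.sub h₁
  have hm : MonotoneOn G (Ici 0) := by
    refine monotoneOn_of_deriv_nonneg (convex_Ici 0) c ?_ ?_
    · intro t ht
      rw [interior_Ici] at ht
      exact (d t ht).differentiableAt.differentiableWithinAt
    · intro t ht
      rw [interior_Ici] at ht
      rw [(d t ht).deriv, hτ]
      have := hg t ht
      simp only [sub_self, zero_div, sub_zero]
      linarith
  have h0 : G 0 ≤ τ₂ - τ₁ := by
    refine ge_of_tendsto l ?_
    filter_upwards [eventually_ge_atTop (0 : ℝ)] with t ht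
    exact hm (le_refl (0 : ℝ)) ht ht
  rw [z, hτ] at h0
  linarith

theorem Rep.eq {g₁ g₂ : ℝ → ℝ} {τ₁ τ₂ s₁ s₂ : ℝ} (h₁ : Rep g₁ τ₁ s₁) (h₂ : Rep g₂ τ₂ s₂)
    (hτ : τ₁ = τ₂) (hg : ∀ t, 0 < t → g₁ t = g₂ t) : s₁ = s₂ :=
  le_antisymm (h₁.le h₂ hτ fun t ht => (hg t ht).le) (h₂.le h₁ hτ.symm fun t ht => (hg t ht).ge)

theorem Rep.base {x : ℝ} (hx : 0 ≤ x) :
    Rep (fun t => Real.log (1 + x / t)) x (Real.negMulLog x) := by
  refine ⟨fun t => (t + x) * Real.log (t + x) - t * Real.log t - x * Real.log (t + 1), ?_, ?_, ?_,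
    ?_⟩
  · refine ContinuousOn.sub (ContinuousOn.sub ?_ ?_) ?_
    · exact (Real.continuous_mul_log.comp (continuous_id.add continuous_const)).continuousOn
    · exact Real.continuous_mul_log.continuousOn
    · refine continuousOn_const.mul (ContinuousOn.log (by fun_prop) ?_)
      intro t ht
      have : (0 : ℝ) ≤ t := ht
      linarith
  · intro t ht
    have h1 : t + x ≠ 0 := by positivity
    have h2 : t + 1 ≠ 0 := by positivity
    have d1 : HasDerivAt (fun t => (t + x) * Real.log (t + x)) (Real.log (t + x) + 1) t := by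
      have := (Real.hasDerivAt_mul_log h1).comp t ((hasDerivAt_id t).add_const x)
      simpa [Function.comp_def] using this
    have d2 := Real.hasDerivAt_mul_log ht.ne'
    have d3 : HasDerivAt (fun t => x * Real.log (t + 1)) (x * (1 / (t + 1))) t := by
      refine HasDerivAt.const_mul x ?_
      simpa using ((hasDerivAt_id t).add_const (1 : ℝ)).log h2
    refine ((d1.fun_sub d2).fun_sub d3).congr_deriv ?_
    have : 1 + x / t = (t + x) / t := by field_simp
    show _ = Real.log (1 + x / t) - _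
    rw [this, Real.log_div h1 ht.ne']
    ring
  · simp [Real.negMulLog]
  · have l1 : Tendsto (fun t : ℝ => t * Real.log (1 + x / t)) atTop (𝓝 x) :=
      Real.tendsto_mul_log_one_add_div_atTop x
    have l2 : Tendsto (fun t : ℝ => x * Real.log (1 + (x - 1) / (t + 1))) atTop (𝓝 0) := by
      have a1 : Tendsto (fun t : ℝ => (x - 1) / (t + 1)) atTop (𝓝 0) :=
        tendsto_const_nhds.div_atTop (tendsto_atTop_add_const_right _ _ tendsto_id)
      have a2 : Tendsto (fun t : ℝ => 1 + (x - 1) / (t + 1)) atTop (𝓝 1) := by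
        simpa using a1.const_add 1
      have a3 := (a2.log one_ne_zero).const_mul x
      simpa using a3
    have l3 := l1.add l2
    rw [add_zero] at l3
    refine l3.congr' ?_
    filter_upwards [eventually_gt_atTop (0 : ℝ)] with t ht
    have h1 : t + x ≠ 0 := by positivity
    have h2 : t + 1 ≠ 0 := by positivity
    have e1 : 1 + x / t = (t + x) / t := by field_simp
    have e2 : 1 + (x - 1) / (t + 1) = (t + x) / (t + 1) := by field_simp; ring
    rw [e1, e2, Real.log_div h1 ht.ne', Real.log_div h1 h2]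
    ring

end Crest.Agent.R341
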