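import Crest.Prelude.Def_QState
import Crest.Agent.R341.Rep

/-! Basic facts on `vnEntropy`. -/

set_option autoImplicit false
set_option linter.unusedSectionVars false

namespace Crest.Agent.R341

open Matrix Crest.Quantum Real
open scoped ComplexOrder Kronecker

variable {m n k : Type*} [Fintype m] [Fintype n] [Fintype k] [DecidableEq m] [DecidableEq n]
  [DecidableEq k]

/-- `log |det (1 + X / t)|`. -/
noncomputable def ld (X : Matrix n n ℂ) (t : ℝ) : ℝ :=
  Real.log ‖(1 + ((t⁻¹ : ℝ) : ℂ) • X).det‖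

theorem exists_diag {X : Matrix n n ℂ} (hX : X.IsHermitian) :
    ∃ U : Matrix n n ℂ, Uᴴ * U = 1 ∧ U * Uᴴ = 1 ∧
      X = U * diagonal (fun i => ((hX.eigenvalues i : ℝ) : ℂ)) * Uᴴ := by
  refine ⟨hX.eigenvectorUnitary, ?_, ?_, ?_⟩
  · exact (Unitary.mem_iff.1 hX.eigenvectorUnitary.2).1
  · exact (Unitary.mem_iff.1 hX.eigenvectorUnitary.2).2
  · exact hX.spectral_theorem

omit [DecidableEq n] in
theorem exists_factor {X : Matrix n n ℂ} (hX : X.PosSemidef) :
    ∃ V : Matrix n n ℂ, X = V * Vᴴ := by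
  classical
  obtain ⟨U, -, -, h⟩ := exists_diag hX.1
  refine ⟨U * diagonal (fun i => ((√(hX.1.eigenvalues i) : ℝ) : ℂ)), ?_⟩
  rw [conjTranspose_mul, diagonal_conjTranspose, ← Matrix.mul_assoc, Matrix.mul_assoc U,
    diagonal_mul_diagonal]
  refine h.trans ?_
  congr 3
  ext i
  simp only [Pi.star_apply, RCLike.star_def, Complex.conj_ofReal]
  rw [← Complex.ofReal_mul, Real.mul_self_sqrt (hX.eigenvalues_nonneg i)]

theorem ld_mul_comm (A : Matrix m n ℂ) (B : Matrix n m ℂ) (t : ℝ) :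
    ld (A * B) t = ld (B * A) t := by
  unfold ld
  rw [← Matrix.smul_mul, det_one_add_mul_comm, Matrix.mul_smul]

theorem ld_conj {J : Matrix m n ℂ} (hJ : Jᴴ * J = 1) (X : Matrix n n ℂ) (t : ℝ) :
    ld (J * X * Jᴴ) t = ld X t := by
  rw [ld_mul_comm, ← Matrix.mul_assoc, hJ, Matrix.one_mul]

omit [DecidableEq m] in
theorem trace_conj {J : Matrix m n ℂ} (hJ : Jᴴ * J = 1) (X : Matrix n n ℂ) :
    (J * X * Jᴴ).trace = X.trace := by
  rw [trace_mul_comm, ← Matrix.mul_assoc, hJ, Matrix.one_mul]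

theorem ld_diagonal {d : n → ℝ} (hd : ∀ i, 0 ≤ d i) {t : ℝ} (ht : 0 < t) :
    ld (diagonal fun i => ((d i : ℝ) : ℂ)) t = ∑ i, Real.log (1 + d i / t) := by
  unfold ld
  have : (1 : Matrix n n ℂ) + ((t⁻¹ : ℝ) : ℂ) • (diagonal fun i => ((d i : ℝ) : ℂ)) =
      diagonal fun i => (((1 + d i / t : ℝ)) : ℂ) := by
    rw [← diagonal_one, ← diagonal_smul, diagonal_add]
    congr 1
    ext i
    simp [div_eq_mul_inv, mul_comm]
  rw [this, det_diagonal, norm_prod, Real.log_prod]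
  · refine Finset.sum_congr rfl fun i _ => ?_
    rw [Complex.norm_real, Real.norm_of_nonneg (by have := hd i; positivity)]
  · intro i _
    rw [Complex.norm_real, Real.norm_of_nonneg (by have := hd i; positivity)]
    have := hd i
    positivity

theorem rep_list {d : n → ℝ} (hd : ∀ i, 0 ≤ d i) :
    Rep (fun t => ∑ i, Real.log (1 + d i / t)) (∑ i, d i) (∑ i, negMulLog (d i)) :=
  Rep.sum _ fun i _ => Rep.base (hd i)

theorem rep_psd {X : Matrix n n ℂ} (hX : X.PosSemidef) :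
    Rep (ld X) X.trace.re (vnEntropy X) := by
  obtain ⟨U, h1, -, h⟩ := exists_diag hX.1
  refine (rep_list hX.eigenvalues_nonneg).congr (fun t ht => ?_) ?_ ?_
  · rw [← ld_diagonal hX.eigenvalues_nonneg ht, ← ld_conj h1 (diagonal _), ← h]
  · rw [hX.1.trace_eq_sum_eigenvalues]
    simp
  · unfold vnEntropy
    rw [dif_pos hX.1, ← Finset.sum_neg_distrib]
    simp [negMulLog]

theorem S_congr {X : Matrix m m ℂ} {Y : Matrix n n ℂ} (hX : X.PosSemidef) (hY : Y.PosSemidef)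
    (htr : X.trace = Y.trace) (h : ∀ t, 0 < t → ld X t = ld Y t) : vnEntropy X = vnEntropy Y :=
  (rep_psd hX).eq (rep_psd hY) (by rw [htr]) h

theorem S_conj {J : Matrix m n ℂ} (hJ : Jᴴ * J = 1) {X : Matrix n n ℂ} (hX : X.PosSemidef) :
    vnEntropy (J * X * Jᴴ) = vnEntropy X :=
  S_congr (hX.mul_mul_conjTranspose_same J) hX (trace_conj hJ X) fun t _ => ld_conj hJ X t

theorem S_mul_comm (A : Matrix m n ℂ) : vnEntropy (A * Aᴴ) = vnEntropy (Aᴴ * A) :=
  S_congr (posSemidef_self_mul_conjTranspose A) (posSemidef_conjTranspose_mul_self A)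
    (trace_mul_comm _ _) fun t _ => ld_mul_comm _ _ t

omit [DecidableEq m] [DecidableEq n] in
theorem trace_submatrix_equiv (X : Matrix n n ℂ) (e : m ≃ n) :
    (X.submatrix e e).trace = X.trace := by
  simp only [trace, diag_apply, submatrix_apply]
  exact Equiv.sum_comp e (fun i => X i i)

theorem S_submatrix {X : Matrix n n ℂ} (hX : X.PosSemidef) (e : m ≃ n) :
    vnEntropy (X.submatrix e e) = vnEntropy X := by
  refine S_congr (hX.submatrix e) hX (trace_submatrix_equiv X e) fun t _ => ?_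
  unfold ld
  rw [← det_submatrix_equiv_self e (1 + _)]
  congr 3
  ext i j
  simp [one_apply]

omit [DecidableEq n] in
theorem psd_diagonal {d : n → ℝ} [DecidableEq n] (hd : ∀ i, 0 ≤ d i) :
    (diagonal fun i => ((d i : ℝ) : ℂ)).PosSemidef :=
  PosSemidef.diagonal fun i => by simpa using hd i

theorem S_diagonal {d : n → ℝ} (hd : ∀ i, 0 ≤ d i) :
    vnEntropy (diagonal fun i => ((d i : ℝ) : ℂ)) = ∑ i, negMulLog (d i) :=
  (rep_psd (psd_diagonal hd)).eq (rep_list hd) (by simp) fun t ht => ld_diagonal hd ht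

theorem S_zero : vnEntropy (0 : Matrix n n ℂ) = 0 := by
  have := S_diagonal (n := n) (d := fun _ => 0) fun _ => le_rfl
  simpa using this

omit [DecidableEq m] [DecidableEq n] in
theorem psd_fromBlocks_diag {X : Matrix m m ℂ} {Y : Matrix n n ℂ} (hX : X.PosSemidef)
    (hY : Y.PosSemidef) : (fromBlocks X 0 0 Y).PosSemidef := by
  obtain ⟨V, rfl⟩ := exists_factor hX
  obtain ⟨W, rfl⟩ := exists_factor hY
  have : fromBlocks (V * Vᴴ) 0 0 (W * Wᴴ) = fromBlocks V 0 0 W * (fromBlocks V 0 0 W)ᴴ := by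
    simp [fromBlocks_conjTranspose, fromBlocks_multiply]
  rw [this]
  exact posSemidef_self_mul_conjTranspose _

theorem det_one_add_ne_zero {X : Matrix n n ℂ} (hX : X.PosSemidef) {t : ℝ} (ht : 0 < t) :
    (1 + ((t⁻¹ : ℝ) : ℂ) • X).det ≠ 0 := by
  have h : (1 + ((t⁻¹ : ℝ) : ℂ) • X).PosDef :=
    PosDef.one.add_posSemidef (hX.smul (by simpa using ht.le))
  exact h.det_pos.ne'

theorem S_fromBlocks {X : Matrix m m ℂ} {Y : Matrix n n ℂ} (hX : X.PosSemidef)
    (hY : Y.PosSemidef) : vnEntropy (fromBlocks X 0 0 Y) = vnEntropy X + vnEntropy Y := by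
  refine (rep_psd (psd_fromBlocks_diag hX hY)).eq ((rep_psd hX).add (rep_psd hY)) ?_ fun t ht => ?_
  · simp [trace, Fintype.sum_sum_type]
  · unfold ld
    have : (1 : Matrix (m ⊕ n) (m ⊕ n) ℂ) + ((t⁻¹ : ℝ) : ℂ) • fromBlocks X 0 0 Y =
        fromBlocks (1 + ((t⁻¹ : ℝ) : ℂ) • X) 0 0 (1 + ((t⁻¹ : ℝ) : ℂ) • Y) := by
      rw [← fromBlocks_one, fromBlocks_smul, fromBlocks_add]
      simp
    rw [this, det_fromBlocks_zero₂₁, norm_mul, Real.log_mul]
    · exact norm_ne_zero_iff.2 (det_one_add_ne_zero hX ht)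
    · exact norm_ne_zero_iff.2 (det_one_add_ne_zero hY ht)

theorem S_eq_sum {X : Matrix n n ℂ} (hX : X.IsHermitian) :
    vnEntropy X = ∑ i, negMulLog (hX.eigenvalues i) := by
  unfold vnEntropy
  rw [dif_pos hX, ← Finset.sum_neg_distrib]
  simp [negMulLog]

theorem trace_re_eq {X : Matrix n n ℂ} (hX : X.IsHermitian) :
    X.trace.re = ∑ i, hX.eigenvalues i := by
  rw [hX.trace_eq_sum_eigenvalues]
  simp

theorem S_smul {X : Matrix n n ℂ} (hX : X.PosSemidef) {c : ℝ} (hc : 0 ≤ c) :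
    vnEntropy ((c : ℂ) • X) = c * vnEntropy X + negMulLog c * X.trace.re := by
  obtain ⟨U, h1, -, h⟩ := exists_diag hX.1
  have h2 : (c : ℂ) • X = U * diagonal (fun i => ((c * hX.1.eigenvalues i : ℝ) : ℂ)) * Uᴴ := by
    conv_lhs => rw [h]
    rw [← Matrix.smul_mul, ← Matrix.mul_smul, ← diagonal_smul]
    congr 3
    ext i
    simp
  have h3 : ∀ i, 0 ≤ c * hX.1.eigenvalues i := fun i => mul_nonneg hc (hX.eigenvalues_nonneg i)
  rw [h2, S_conj h1 (psd_diagonal h3), S_diagonal h3, S_eq_sum hX.1, trace_re_eq hX.1,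
    Finset.mul_sum, Finset.mul_sum, ← Finset.sum_add_distrib]
  refine Finset.sum_congr rfl fun i _ => ?_
  rw [negMulLog_mul]
  ring

theorem S_kronecker {X : Matrix m m ℂ} {Y : Matrix n n ℂ} (hX : X.PosSemidef)
    (hY : Y.PosSemidef) :
    vnEntropy (X ⊗ₖ Y) = Y.trace.re * vnEntropy X + X.trace.re * vnEntropy Y := by
  obtain ⟨U, h1, -, h⟩ := exists_diag hX.1
  obtain ⟨W, h2, -, h'⟩ := exists_diag hY.1
  have h3 : X ⊗ₖ Y = (U ⊗ₖ W) * diagonal (fun p : m × n =>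
      ((hX.1.eigenvalues p.1 * hY.1.eigenvalues p.2 : ℝ) : ℂ)) * (U ⊗ₖ W)ᴴ := by
    conv_lhs => rw [h, h']
    rw [mul_kronecker_mul, mul_kronecker_mul, conjTranspose_kronecker, diagonal_kronecker_diagonal]
    simp
  have h4 : (U ⊗ₖ W)ᴴ * (U ⊗ₖ W) = 1 := by
    rw [conjTranspose_kronecker, ← mul_kronecker_mul, h1, h2, one_kronecker_one]
  have h5 : ∀ p : m × n, 0 ≤ hX.1.eigenvalues p.1 * hY.1.eigenvalues p.2 := fun p =>
    mul_nonneg (hX.eigenvalues_nonneg _) (hY.eigenvalues_nonneg _)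
  rw [h3, S_conj h4 (psd_diagonal h5), S_diagonal h5, S_eq_sum hX.1, S_eq_sum hY.1,
    trace_re_eq hX.1, trace_re_eq hY.1, Fintype.sum_prod_type]
  simp only [negMulLog_mul, Finset.sum_add_distrib, Finset.sum_mul, Finset.mul_sum]
  congr 1
  rw [Finset.sum_comm]

end Crest.Agent.R341
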