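import Crest.Agent.R341.Chan

/-! Additivity for the generalized amplitude damping channel. -/

set_option autoImplicit false
set_option linter.unusedSectionVars false

namespace Crest.Agent.R341

open Matrix Crest.Quantum Real Crest.MathPhysics.AmpDamp
open scoped ComplexOrder Kronecker

variable {d e ι κ : Type*} [Fintype d] [DecidableEq d] [Fintype e] [DecidableEq e] [Fintype ι]
  [Fintype κ]

theorem gad_expand (γ ν : ℝ) (X : Matrix Bool Bool ℂ) (s t : Bool) :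
    gadMap γ ν X s t = ∑ s', ∑ t', qubitCoeff (gadMap γ ν) s t s' t' * X s' t' := by
  cases s <;> cases t <;> simp [qubitCoeff, gadMap, single_apply]
  all_goals ring

theorem gad_density {γ ν : ℝ} (hγ : γ ∈ Set.Icc (0 : ℝ) 1) (hν : ν ∈ Set.Icc (0 : ℝ) 1)
    {X : Matrix Bool Bool ℂ} (h : IsDensity X) : IsDensity (gadMap γ ν X) := by
  constructor
  · have := (gadT_density hγ hν (h.1.submatrix (Prod.fst : Bool × Unit → Bool))).submatrix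
      (fun s : Bool => (s, ()))
    convert this using 1
    ext s t
    rw [gad_expand]
    rfl
  · rw [← h.2]
    simp [trace, gadMap]
    ring

theorem S_two {X : Matrix Bool Bool ℂ} (h : IsDensity X) {v : ℝ} (hv : X.det = v)
    (v1 : 4 * v ≤ 1) : vnEntropy X = E2 1 v := by
  have v0 : 0 ≤ v := by
    have := h.1.det_nonneg
    rw [hv] at this
    exact_mod_cast this
  refine (rep_psd h.1).eq (rep_E2 zero_le_one v0 (by linarith)) (by rw [h.2]; simp) fun t ht => ?_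
  unfold ld
  have e1 : (1 + ((t⁻¹ : ℝ) : ℂ) • X).det = ((1 + 1 / t + v / t ^ 2 : ℝ) : ℂ) := by
    have h2 := h.2
    simp only [trace, diag_apply, Fintype.sum_bool] at h2
    rw [det_bool] at hv ⊢
    simp only [Matrix.add_apply, one_apply_eq, Matrix.smul_apply, smul_eq_mul, ne_eq,
      Bool.false_eq_true, not_false_eq_true, one_apply_ne, Bool.true_eq_false]
    push_cast
    linear_combination (t : ℂ)⁻¹ * h2 + (t : ℂ)⁻¹ ^ 2 * hv
  rw [e1, Complex.norm_real, Real.norm_of_nonneg (by positivity)]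

/-- pure state with excited population `p` and real coherence of sign `σ` -/
noncomputable def pureS (p σ : ℝ) : Matrix Bool Bool ℂ :=
  vecMulVec (xv p σ 1) (star (xv p σ 1))

theorem pureS_apply {p σ : ℝ} (hp : p ∈ Set.Icc (0 : ℝ) 1) (hσ : σ ^ 2 = 1) :
    pureS p σ false false = ((1 - p : ℝ) : ℂ) ∧ pureS p σ true true = (p : ℂ) ∧
      pureS p σ false true = ((σ * (√p * √(1 - p)) : ℝ) : ℂ) ∧
      pureS p σ true false = ((σ * (√p * √(1 - p)) : ℝ) : ℂ) := by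
  have a1 : ((√p : ℝ) : ℂ) * (√p : ℝ) = p := by exact_mod_cast Real.mul_self_sqrt hp.1
  have a2 : ((√(1 - p) : ℝ) : ℂ) * (√(1 - p) : ℝ) = 1 - p := by
    exact_mod_cast Real.mul_self_sqrt (sub_nonneg.2 hp.2)
  have a3 : (σ : ℂ) ^ 2 = 1 := by exact_mod_cast hσ
  refine ⟨?_, ?_, ?_, ?_⟩ <;> simp [pureS, vecMulVec_apply, xv]
  · exact a2
  · linear_combination (σ : ℂ) ^ 2 * a1 + p * a3
  · ring
  · ring

theorem pureS_density {p σ : ℝ} (hp : p ∈ Set.Icc (0 : ℝ) 1) (hσ : σ ^ 2 = 1) :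
    IsDensity (pureS p σ) := by
  refine ⟨posSemidef_vecMulVec_self_star _, ?_⟩
  obtain ⟨h1, h2, -, -⟩ := pureS_apply hp hσ
  simp [trace, h1, h2]

theorem vv_le {γ ν p : ℝ} (hγ : γ ∈ Set.Icc (0 : ℝ) 1) (hp : p ∈ Set.Icc (0 : ℝ) 1) :
    4 * vv γ ν p ≤ 1 := by
  have h : 0 ≤ (1 - γ) * (p * (1 - p)) :=
    mul_nonneg (sub_nonneg.2 hγ.2) (mul_nonneg hp.1 (sub_nonneg.2 hp.2))
  have e1 : 4 * vv γ ν p = 1 - (1 - 2 * ((1 - γ) * p + γ * ν)) ^ 2 -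
      4 * ((1 - γ) * (p * (1 - p))) := by
    unfold vv
    ring
  nlinarith [sq_nonneg (1 - 2 * ((1 - γ) * p + γ * ν))]

theorem S_gad_pure {γ ν : ℝ} (hγ : γ ∈ Set.Icc (0 : ℝ) 1) (hν : ν ∈ Set.Icc (0 : ℝ) 1) {p σ : ℝ}
    (hp : p ∈ Set.Icc (0 : ℝ) 1) (hσ : σ ^ 2 = 1) :
    vnEntropy (gadMap γ ν (pureS p σ)) = E2 1 (vv γ ν p) := by
  refine S_two (gad_density hγ hν (pureS_density hp hσ)) ?_ (vv_le hγ hp)
  obtain ⟨h1, h2, h3, h4⟩ := pureS_apply hp hσ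
  have a1 : ((√p : ℝ) : ℂ) * (√p : ℝ) = p := by exact_mod_cast Real.mul_self_sqrt hp.1
  have a2 : ((√(1 - p) : ℝ) : ℂ) * (√(1 - p) : ℝ) = 1 - p := by
    exact_mod_cast Real.mul_self_sqrt (sub_nonneg.2 hp.2)
  have a3 : (σ : ℂ) ^ 2 = 1 := by exact_mod_cast hσ
  have a4 : ((√(1 - γ) : ℝ) : ℂ) * (√(1 - γ) : ℝ) = 1 - γ := by
    exact_mod_cast Real.mul_self_sqrt (sub_nonneg.2 hγ.2)
  rw [det_bool]
  simp [gadMap, h1, h2, h3, h4, vv]
  linear_combination (-(σ : ℂ) ^ 2 * (((√p : ℝ) : ℂ) * (√p : ℝ)) *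
      (((√(1 - p) : ℝ) : ℂ) * (√(1 - p) : ℝ))) * a4 - (1 - γ) * (((√p : ℝ) : ℂ) * (√p : ℝ)) *
      (((√(1 - p) : ℝ) : ℂ) * (√(1 - p) : ℝ)) * a3 - (1 - γ) *
      (((√(1 - p) : ℝ) : ℂ) * (√(1 - p) : ℝ)) * a1 - (1 - γ) * p * a2

theorem gad_ens {γ ν : ℝ} (hγ : γ ∈ Set.Icc (0 : ℝ) 1) (hν : ν ∈ Set.Icc (0 : ℝ) 1)
    {q p : ι → ℝ} (q0 : ∀ a, 0 ≤ q a) (q1 : ∑ a, q a = 1) (hp : ∀ a, p a ∈ Set.Icc (0 : ℝ) 1) :
    ∃ (w : ι × Bool → ℝ) (σ : ι × Bool → Matrix Bool Bool ℂ), Ens w σ ∧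
      hol (gadMap γ ν) w σ =
        binEntropy ((1 - γ) * (∑ a, q a * p a) + γ * ν) - ∑ a, q a * E2 1 (vv γ ν (p a)) := by
  have hs : ∀ c : Bool, (if c then (1 : ℝ) else -1) ^ 2 = 1 := by
    rintro (_ | _) <;> simp
  refine ⟨fun k => q k.1 / 2, fun k => pureS (p k.1) (if k.2 then 1 else -1),
    ⟨fun k => div_nonneg (q0 _) zero_le_two, ?_, fun k => pureS_density (hp _) (hs _)⟩, ?_⟩
  · rw [Fintype.sum_prod_type, ← q1]
    exact Finset.sum_congr rfl fun a _ => by simp; ring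
  set P := ∑ a, q a * p a with hP
  have P0 : 0 ≤ P := Finset.sum_nonneg fun a _ => mul_nonneg (q0 a) (hp a).1
  have P1 : P ≤ 1 := by
    rw [← q1]
    exact Finset.sum_le_sum fun a _ => mul_le_of_le_one_right (q0 a) (hp a).2
  set r := (1 - γ) * P + γ * ν with hr
  have e1 : ∑ k : ι × Bool, ((q k.1 / 2 : ℝ) : ℂ) •
      gadMap γ ν (pureS (p k.1) (if k.2 then 1 else -1)) =
      diagonal fun s : Bool => (((if s then r else 1 - r : ℝ)) : ℂ) := by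
    have q1' : ∑ a, (q a : ℂ) = 1 := by exact_mod_cast q1
    have hP' : (P : ℂ) = ∑ a, (q a : ℂ) * p a := by rw [hP]; push_cast; rfl
    have h1 := fun a => pureS_apply (hp a) (σ := 1) (by norm_num)
    have h2 := fun a => pureS_apply (hp a) (σ := -1) (by norm_num)
    ext (_ | _) (_ | _) <;>
      simp only [Fintype.sum_prod_type, Fintype.sum_bool, Matrix.sum_apply,
        Matrix.smul_apply, smul_eq_mul, gadMap, of_apply, if_true, Bool.false_eq_true, if_false,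
        and_self, h1, h2, Bool.true_eq_false, and_false, false_and, diagonal_apply_eq, ne_eq,
        not_false_eq_true, diagonal_apply_ne]
    · rw [hr]
      push_cast
      rw [hP', Finset.mul_sum]
      conv_rhs => rw [← mul_one (γ * ν : ℂ), ← q1', Finset.mul_sum]
      rw [← Finset.sum_add_distrib, ← Finset.sum_sub_distrib]
      refine Finset.sum_congr rfl fun a _ => ?_
      rw [q1']
      ring
    · exact Finset.sum_eq_zero fun a _ => by push_cast; ring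
    · exact Finset.sum_eq_zero fun a _ => by push_cast; ring
    · rw [hr]
      push_cast
      rw [hP', Finset.mul_sum]
      conv_rhs => rw [← mul_one (γ * ν : ℂ), ← q1', Finset.mul_sum]
      rw [← Finset.sum_add_distrib]
      refine Finset.sum_congr rfl fun a _ => ?_
      rw [q1']
      ring
  have r0 : 0 ≤ r := by
    have := mul_nonneg (sub_nonneg.2 hγ.2) P0
    have := mul_nonneg hγ.1 hν.1
    linarith
  have r1 : r ≤ 1 := by
    have := mul_le_of_le_one_right (sub_nonneg.2 hγ.2) P1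
    have := mul_le_of_le_one_right hγ.1 hν.2
    linarith
  unfold hol
  rw [e1, S_diagonal (by rintro (_ | _) <;> simp [r0, r1]),
    binEntropy_eq_negMulLog_add_negMulLog_one_sub, Fintype.sum_prod_type]
  simp only [Fintype.sum_bool, if_true, Bool.false_eq_true, if_false]
  congr 1
  refine Finset.sum_congr rfl fun a _ => ?_
  rw [S_gad_pure hγ hν (hp a) (by norm_num), S_gad_pure hγ hν (hp a) (by norm_num)]
  ring

theorem tensor_kron (γ ν : ℝ) {Ψ : Matrix d d ℂ → Matrix e e ℂ} (hΨ : IsChannel Ψ)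
    (X : Matrix Bool Bool ℂ) (Y : Matrix d d ℂ) :
    qubitTensor (gadMap γ ν) Ψ (X ⊗ₖ Y) = gadMap γ ν X ⊗ₖ Ψ Y := by
  ext ⟨s, i⟩ ⟨t, j⟩
  have : ∀ s' t', block (X ⊗ₖ Y) s' t' = X s' t' • Y := fun s' t' => by
    ext a b
    simp [block]
  simp only [qubitTensor, of_apply, this, hΨ.1.map_smul, kroneckerMap_apply, gad_expand,
    Finset.sum_mul, Matrix.smul_apply, smul_eq_mul, mul_assoc]

theorem kron_density {X : Matrix d d ℂ} {Y : Matrix e e ℂ} (hX : IsDensity X) (hY : IsDensity Y) :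
    IsDensity (X ⊗ₖ Y) :=
  ⟨hX.1.kronecker hY.1, by rw [trace_kronecker, hX.2, hY.2, one_mul]⟩

theorem S_kron_density {X : Matrix d d ℂ} {Y : Matrix e e ℂ} (hX : IsDensity X)
    (hY : IsDensity Y) : vnEntropy (X ⊗ₖ Y) = vnEntropy X + vnEntropy Y := by
  rw [S_kronecker hX.1 hY.1, hX.2, hY.2]
  simp

theorem prod_ens {γ ν : ℝ} (hγ : γ ∈ Set.Icc (0 : ℝ) 1) (hν : ν ∈ Set.Icc (0 : ℝ) 1)
    {Ψ : Matrix d d ℂ → Matrix e e ℂ} (hΨ : IsChannel Ψ) {q₁ : ι → ℝ}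
    {ρ₁ : ι → Matrix Bool Bool ℂ} {q₂ : κ → ℝ} {ρ₂ : κ → Matrix d d ℂ} (h₁ : Ens q₁ ρ₁)
    (h₂ : Ens q₂ ρ₂) :
    ∃ (q : ι × κ → ℝ) (ρ : ι × κ → Matrix (Bool × d) (Bool × d) ℂ), Ens q ρ ∧
      hol (qubitTensor (gadMap γ ν) Ψ) q ρ = hol (gadMap γ ν) q₁ ρ₁ + hol Ψ q₂ ρ₂ := by
  refine ⟨fun k => q₁ k.1 * q₂ k.2, fun k => ρ₁ k.1 ⊗ₖ ρ₂ k.2,
    ⟨fun k => mul_nonneg (h₁.1 _) (h₂.1 _), ?_, fun k => kron_density (h₁.2.2 _) (h₂.2.2 _)⟩, ?_⟩
  · rw [Fintype.sum_prod_type]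
    simp only [← Finset.mul_sum, h₂.2.1, mul_one, h₁.2.1]
  have E1 : Ens q₁ fun a => gadMap γ ν (ρ₁ a) :=
    ⟨h₁.1, h₁.2.1, fun a => gad_density hγ hν (h₁.2.2 a)⟩
  have E2 : Ens q₂ fun a => Ψ (ρ₂ a) := ⟨h₂.1, h₂.2.1, fun a => chan_density hΨ (h₂.2.2 a)⟩
  have e1 : ∑ k : ι × κ, ((q₁ k.1 * q₂ k.2 : ℝ) : ℂ) • (gadMap γ ν (ρ₁ k.1) ⊗ₖ Ψ (ρ₂ k.2)) =
      (∑ a, (q₁ a : ℂ) • gadMap γ ν (ρ₁ a)) ⊗ₖ (∑ a, (q₂ a : ℂ) • Ψ (ρ₂ a)) := by
    ext ⟨s, i⟩ ⟨t, j⟩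
    simp only [Matrix.sum_apply, Matrix.smul_apply, kroneckerMap_apply, smul_eq_mul,
      Fintype.sum_prod_type, Finset.sum_mul_sum]
    refine Finset.sum_congr rfl fun a _ => Finset.sum_congr rfl fun b _ => ?_
    push_cast
    ring
  unfold hol
  simp only [tensor_kron γ ν hΨ]
  rw [e1, S_kron_density (density_avg E1) (density_avg E2), Fintype.sum_prod_type]
  have e2 : ∀ a b, q₁ a * q₂ b * vnEntropy (gadMap γ ν (ρ₁ a) ⊗ₖ Ψ (ρ₂ b)) =
      q₁ a * vnEntropy (gadMap γ ν (ρ₁ a)) * q₂ b + q₁ a * (q₂ b * vnEntropy (Ψ (ρ₂ b))) := by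
    intro a b
    rw [S_kron_density (E1.2.2 a) (E2.2.2 b)]
    ring
  simp only [e2, Finset.sum_add_distrib, ← Finset.mul_sum, ← Finset.sum_mul, h₂.2.1, h₁.2.1]
  ring

theorem min_entropy [Nonempty d] {γ ν : ℝ} (hγ : γ ∈ Set.Icc (0 : ℝ) 1)
    (hν : ν ∈ Set.Icc (0 : ℝ) 1) {Ψ : Matrix d d ℂ → Matrix e e ℂ} (hΨ : IsChannel Ψ)
    {ρ : Matrix (Bool × d) (Bool × d) ℂ} (hρ : IsDensity ρ) :
    ∃ (ρ₁ : Matrix Bool Bool ℂ) (ρ₂ : Matrix d d ℂ), IsDensity ρ₁ ∧ IsDensity ρ₂ ∧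
      vnEntropy (gadMap γ ν ρ₁) + vnEntropy (Ψ ρ₂) ≤ vnEntropy (qubitTensor (gadMap γ ν) Ψ ρ) := by
  obtain ⟨w, σ, h1, -, h3⟩ := lower_bound hγ hν hΨ hρ
  obtain ⟨k, -, hk⟩ := Finset.exists_min_image Finset.univ (fun k => vnEntropy (Ψ (σ k)))
    Finset.univ_nonempty
  have hp := (pop_mem hρ).1
  refine ⟨pureS (block ρ true true).trace.re 1, σ k, pureS_density hp (by norm_num), h1.2.2 k, ?_⟩
  rw [S_gad_pure hγ hν hp (by norm_num)]
  have : vnEntropy (Ψ (σ k)) ≤ ∑ j, w j * vnEntropy (Ψ (σ j)) := by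
    calc vnEntropy (Ψ (σ k)) = ∑ j, w j * vnEntropy (Ψ (σ k)) := by
          rw [← Finset.sum_mul, h1.2.1, one_mul]
      _ ≤ _ := Finset.sum_le_sum fun j hj => mul_le_mul_of_nonneg_left (hk j hj) (h1.1 j)
  linarith

end Crest.Agent.R341
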