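import Crest.Agent.R341.Rep

/-! Scalar entropy inequalities. -/

set_option autoImplicit false

namespace Crest.Agent.R341

open Real

/-- larger root of `x ^ 2 - w x + d` -/
noncomputable def lp (w d : ℝ) : ℝ := (w + √(w ^ 2 - 4 * d)) / 2
/-- smaller root of `x ^ 2 - w x + d` -/
noncomputable def lm (w d : ℝ) : ℝ := (w - √(w ^ 2 - 4 * d)) / 2
/-- entropy of a `2 × 2` positive matrix of trace `w` and determinant `d` -/
noncomputable def E2 (w d : ℝ) : ℝ := negMulLog (lp w d) + negMulLog (lm w d)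

theorem lp_add_lm (w d : ℝ) : lp w d + lm w d = w := by unfold lp lm; ring

theorem lp_mul_lm {w d : ℝ} (h : 4 * d ≤ w ^ 2) : lp w d * lm w d = d := by
  unfold lp lm
  have := Real.sq_sqrt (sub_nonneg.2 h)
  nlinarith

theorem lp_nonneg {w : ℝ} (hw : 0 ≤ w) (d : ℝ) : 0 ≤ lp w d := by unfold lp; positivity

theorem lm_nonneg {w d : ℝ} (hw : 0 ≤ w) (hd : 0 ≤ d) : 0 ≤ lm w d := by
  unfold lm
  have : √(w ^ 2 - 4 * d) ≤ w := Real.sqrt_le_iff.2 ⟨hw, by linarith⟩
  linarith

theorem rep_E2 {w d : ℝ} (hw : 0 ≤ w) (hd : 0 ≤ d) (h : 4 * d ≤ w ^ 2) :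
    Rep (fun t => log (1 + w / t + d / t ^ 2)) w (E2 w d) := by
  refine ((Rep.base (lp_nonneg hw d)).add (Rep.base (lm_nonneg hw hd))).congr (fun t ht => ?_)
    (lp_add_lm w d).symm rfl
  have h1 := lp_nonneg hw d
  have h2 := lm_nonneg hw hd
  rw [← Real.log_mul (by positivity) (by positivity)]
  congr 1
  conv_lhs => rw [← lp_mul_lm h, ← lp_add_lm w d]
  rw [lp_add_lm]
  conv_lhs => rw [← lp_add_lm w d]
  rw [lp_add_lm]
  have e1 := lp_add_lm w d
  field_simp
  linear_combination (-t) * e1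

theorem E2_mono {w d d' : ℝ} (hw : 0 ≤ w) (hd : 0 ≤ d) (hdd : d ≤ d') (h : 4 * d' ≤ w ^ 2) :
    E2 w d ≤ E2 w d' := by
  refine (rep_E2 hw hd (by linarith)).le (rep_E2 hw (hd.trans hdd) h) rfl fun t ht => ?_
  refine Real.log_le_log (by positivity) ?_
  gcongr

theorem E2_hom {c : ℝ} (hc : 0 ≤ c) (w d : ℝ) :
    E2 (c * w) (c ^ 2 * d) = c * E2 w d + negMulLog c * w := by
  have h : √((c * w) ^ 2 - 4 * (c ^ 2 * d)) = c * √(w ^ 2 - 4 * d) := by
    rw [show (c * w) ^ 2 - 4 * (c ^ 2 * d) = c ^ 2 * (w ^ 2 - 4 * d) by ring,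
      Real.sqrt_mul (sq_nonneg c), Real.sqrt_sq hc]
  have h1 : lp (c * w) (c ^ 2 * d) = c * lp w d := by unfold lp; rw [h]; ring
  have h2 : lm (c * w) (c ^ 2 * d) = c * lm w d := by unfold lm; rw [h]; ring
  unfold E2
  rw [h1, h2, negMulLog_mul, negMulLog_mul]
  have e1 := lp_add_lm w d
  linear_combination negMulLog c * e1

theorem E2_one (d : ℝ) : E2 1 d = binEntropy ((1 + √(1 - 4 * d)) / 2) := by
  rw [binEntropy_eq_negMulLog_add_negMulLog_one_sub]
  unfold E2 lp lm
  rw [one_pow]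
  congr 2
  ring

theorem E2_zero {w : ℝ} (hw : 0 ≤ w) : E2 w 0 = negMulLog w := by
  unfold E2 lp lm
  simp [Real.sqrt_sq hw]

/-- the scalar comparison function -/
noncomputable def psi (a y z : ℝ) : ℝ :=
  E2 (a + y + z) (y * z) - negMulLog a - negMulLog y - negMulLog z

theorem rep_psi {a y z : ℝ} (ha : 0 ≤ a) (hy : 0 ≤ y) (hz : 0 ≤ z) :
    Rep (fun t => log (1 + t * a / ((t + y) * (t + z)))) a (psi a y z + negMulLog a) := by
  have h : 4 * (y * z) ≤ (a + y + z) ^ 2 := by
    nlinarith [sq_nonneg (y - z), mul_nonneg ha hy, mul_nonneg ha hz]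
  refine (((rep_E2 (by positivity) (mul_nonneg hy hz) h).sub (Rep.base hy)).sub
    (Rep.base hz)).congr (fun t ht => ?_) (by ring) (by unfold psi; ring)
  rw [← Real.log_div (by positivity) (by positivity), ← Real.log_div (by positivity)
    (by positivity)]
  congr 1
  field_simp
  ring

theorem psi_hom {c : ℝ} (hc : 0 ≤ c) (a y z : ℝ) : psi (c * a) (c * y) (c * z) = c * psi a y z := by
  unfold psi
  rw [show c * a + c * y + c * z = c * (a + y + z) by ring,
    show c * y * (c * z) = c ^ 2 * (y * z) by ring, E2_hom hc]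
  simp only [negMulLog_mul]
  ring

theorem psi_zero {y z : ℝ} (hy : 0 ≤ y) (hz : 0 ≤ z) : psi 0 y z = 0 := by
  have := (rep_psi le_rfl hy hz).eq Rep.zero rfl fun t _ => by simp
  simpa using this

theorem log_tangent {c p q P Q : ℝ} (hc : 0 < c) (hp : 0 < p) (hq : 0 < q) (hP : 0 < P)
    (hQ : 0 < Q) :
    log (1 + c / (P * Q)) - c / (P * Q + c) * ((p - P) / P + (q - Q) / Q) ≤
      log (1 + c / (p * q)) := by
  set κ := c / (P * Q + c) with hκ
  have κ0 : 0 ≤ κ := by positivity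
  have κ1 : 0 ≤ 1 - κ := by
    rw [hκ, sub_nonneg, div_le_one (by positivity)]
    have := mul_pos hP hQ
    linarith
  have h1 := (strictConcaveOn_log_Ioi.concaveOn).2 (Set.mem_Ioi.2 one_pos)
    (Set.mem_Ioi.2 (show 0 < P * Q / (p * q) by positivity)) κ1 κ0 (by ring)
  simp only [smul_eq_mul, Real.log_one, mul_zero, zero_add, mul_one] at h1
  have h2 : 1 - κ + κ * (P * Q / (p * q)) = (1 + c / (p * q)) / (1 + c / (P * Q)) := by
    rw [hκ]
    field_simp
    ring
  rw [h2, Real.log_div (x := 1 + c / (p * q)) (by positivity) (by positivity)] at h1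
  have h3 : log (P * Q / (p * q)) = -log (p / P) - log (q / Q) := by
    rw [Real.log_div (by positivity) (by positivity), Real.log_div hp.ne' hP.ne',
      Real.log_div hq.ne' hQ.ne', Real.log_mul hP.ne' hQ.ne', Real.log_mul hp.ne' hq.ne']
    ring
  have h4 := Real.log_le_sub_one_of_pos (show 0 < p / P by positivity)
  have h5 := Real.log_le_sub_one_of_pos (show 0 < q / Q by positivity)
  have h6 : (p - P) / P = p / P - 1 := by field_simp
  have h7 : (q - Q) / Q = q / Q - 1 := by field_simp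
  rw [h6, h7]
  rw [h3] at h1
  nlinarith

theorem psi_sum_le {ι : Type*} [Fintype ι] {a y z : ι → ℝ} (ha : ∀ i, 0 ≤ a i) (hy : ∀ i, 0 ≤ y i)
    (hz : ∀ i, 0 ≤ z i) :
    psi (∑ i, a i) (∑ i, y i) (∑ i, z i) ≤ ∑ i, psi (a i) (y i) (z i) := by
  have hA : 0 ≤ ∑ i, a i := Finset.sum_nonneg fun i _ => ha i
  have hY : 0 ≤ ∑ i, y i := Finset.sum_nonneg fun i _ => hy i
  have hZ : 0 ≤ ∑ i, z i := Finset.sum_nonneg fun i _ => hz i
  rcases hA.eq_or_lt with h0 | hA'
  · have h1 := (Finset.sum_eq_zero_iff_of_nonneg fun i _ => ha i).1 h0.symm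
    rw [← h0, psi_zero hY hZ]
    refine Finset.sum_nonneg fun i hi => ?_
    rw [h1 i hi, psi_zero (hy i) (hz i)]
  set A := ∑ i, a i with hAd
  set Y := ∑ i, y i with hYd
  set Z := ∑ i, z i with hZd
  have e : ∀ {a y z : ℝ}, 0 ≤ a → 0 ≤ y → 0 ≤ z →
      psi a y z = a * (psi 1 (y / a) (z / a) + negMulLog 1) := by
    intro a y z ha hy hz
    rcases ha.eq_or_lt with h | h
    · rw [← h, psi_zero hy hz, zero_mul]
    · rw [negMulLog_one, add_zero, ← psi_hom ha, mul_one, mul_div_cancel₀ _ h.ne',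
        mul_div_cancel₀ _ h.ne']
  have r1 := (rep_psi zero_le_one (div_nonneg hY hA) (div_nonneg hZ hA)).smul A
  have r2 := Rep.sum Finset.univ fun i _ =>
    (rep_psi zero_le_one (div_nonneg (hy i) (ha i)) (div_nonneg (hz i) (ha i))).smul (a i)
  rw [e hA hY hZ, Finset.sum_congr rfl fun i _ => e (ha i) (hy i) (hz i)]
  refine r1.le r2 (by simp [hAd]) fun t ht => ?_
  set P := t + Y / A with hP
  set Q := t + Z / A with hQ
  have P0 : 0 < P := by positivity
  have Q0 : 0 < Q := by positivity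
  set κ := t / (P * Q + t) with hκ
  have κ0 : 0 ≤ κ := by positivity
  have h1 : ∀ i, a i * log (1 + t * 1 / (P * Q)) -
      κ * ((y i - a i * (Y / A)) / P + (z i - a i * (Z / A)) / Q) ≤
      a i * log (1 + t * 1 / ((t + y i / a i) * (t + z i / a i))) := by
    intro i
    have y0 := hy i
    have z0 := hz i
    rcases (ha i).eq_or_lt with h | h
    · rw [← h]
      simp only [zero_mul, sub_zero, zero_sub, neg_nonpos]
      positivity
    · have := log_tangent ht (show 0 < t + y i / a i by positivity)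
        (show 0 < t + z i / a i by positivity) P0 Q0
      have h2 := mul_le_mul_of_nonneg_left this h.le
      rw [mul_one]
      refine le_trans (le_of_eq ?_) h2
      rw [← hκ, hP, hQ]
      field_simp
      ring
  refine le_trans (le_of_eq ?_) (Finset.sum_le_sum fun i _ => h1 i)
  rw [Finset.sum_sub_distrib, ← Finset.sum_mul, ← Finset.mul_sum, Finset.sum_add_distrib,
    ← Finset.sum_div, ← Finset.sum_div, Finset.sum_sub_distrib, Finset.sum_sub_distrib,
    ← Finset.sum_mul, ← Finset.sum_mul, ← hAd, ← hYd, ← hZd, mul_div_cancel₀ _ hA'.ne',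
    mul_div_cancel₀ _ hA'.ne']
  simp

end Crest.Agent.R341
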