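import Crest.Agent.R341.DetBlock
import Crest.Agent.R341.Scalar

/-! The zero-block entropy inequality. -/

set_option autoImplicit false
set_option linter.unusedSectionVars false

namespace Crest.Agent.R341

open Matrix Crest.Quantum Real
open scoped ComplexOrder

variable {m n k m' n' k' : Type*} [Fintype m] [DecidableEq m] [Fintype n] [DecidableEq n]
  [Fintype k] [DecidableEq k] [Fintype m'] [DecidableEq m'] [Fintype n'] [DecidableEq n']
  [Fintype k'] [DecidableEq k']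

/-- The Gram matrix of the rows of `[[A, B], [C, 0]]`. -/
def gram (A B : Matrix m k ℂ) (C : Matrix n k ℂ) : Matrix (m ⊕ n) (m ⊕ n) ℂ :=
  fromBlocks (A * Aᴴ + B * Bᴴ) (A * Cᴴ) (C * Aᴴ) (C * Cᴴ)

theorem gram_psd (A B : Matrix m k ℂ) (C : Matrix n k ℂ) : (gram A B C).PosSemidef := by
  have : gram A B C = fromBlocks A B C 0 * (fromBlocks A B C 0)ᴴ := by
    simp [gram, fromBlocks_conjTranspose, fromBlocks_multiply]
  rw [this]
  exact posSemidef_self_mul_conjTranspose _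

/-- The zero-block inequality. -/
def ZB (A B : Matrix m k ℂ) (C : Matrix n k ℂ) : Prop :=
  psi (A * Aᴴ).trace.re (B * Bᴴ).trace.re (C * Cᴴ).trace.re + vnEntropy (A * Aᴴ) +
    vnEntropy (B * Bᴴ) + vnEntropy (C * Cᴴ) ≤ vnEntropy (gram A B C)

theorem det_gram (A B : Matrix m k ℂ) (C : Matrix n k ℂ) (c : ℂ)
    (hP : (1 + c • (B * Bᴴ)).det ≠ 0) :
    (1 + c • gram A B C).det = (1 + c • (B * Bᴴ)).det *
      (1 + c • (Cᴴ * C) + c • (Aᴴ * (1 + c • (B * Bᴴ))⁻¹ * A)).det := by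
  set P := 1 + c • (B * Bᴴ) with hPd
  have e1 : 1 + c • gram A B C =
      fromBlocks P 0 0 1 + fromRows A C * (c • fromCols Aᴴ Cᴴ) := by
    rw [Matrix.mul_smul, fromRows_mul_fromCols, gram, ← fromBlocks_one, fromBlocks_smul,
      fromBlocks_smul, fromBlocks_add, fromBlocks_add, hPd, smul_add]
    congr 1
    abel
  have e2 : (fromBlocks P 0 0 (1 : Matrix n n ℂ))⁻¹ = fromBlocks P⁻¹ 0 0 1 := by
    refine inv_eq_right_inv ?_
    rw [fromBlocks_multiply, ← fromBlocks_one, mul_nonsing_inv _ hP.isUnit]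
    simp
  have e3 : (fromBlocks P 0 0 (1 : Matrix n n ℂ)).det = P.det := by
    rw [det_fromBlocks_zero₂₁, det_one, mul_one]
  rw [e1, det_add_mul _ _ (by rw [e3]; exact hP.isUnit), e3, e2, Matrix.smul_mul, Matrix.smul_mul,
    fromCols_mul_fromBlocks, fromCols_mul_fromRows]
  congr 2
  simp only [Matrix.mul_zero, add_zero, zero_add, Matrix.mul_one, smul_add]
  abel

theorem zb_diag (α : n → ℝ) (B C : Matrix n n ℂ) :
    ZB (diagonal fun i => ((α i : ℝ) : ℂ)) B C := by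
  set A : Matrix n n ℂ := diagonal fun i => ((α i : ℝ) : ℂ) with hA
  have hAh : Aᴴ = A := by
    rw [hA, diagonal_conjTranspose]
    congr 1
    ext i
    simp
  have hAA : A * Aᴴ = diagonal fun i => ((α i ^ 2 : ℝ) : ℂ) := by
    rw [hAh, hA, diagonal_mul_diagonal]
    congr 1
    ext i
    simp [sq]
  have hY := posSemidef_self_mul_conjTranspose B
  have hZ := posSemidef_conjTranspose_mul_self C
  set y : n → ℝ := fun i => ((B * Bᴴ) i i).re with hy
  set z : n → ℝ := fun i => ((Cᴴ * C) i i).re with hz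
  have y0 : ∀ i, 0 ≤ y i := fun i => (Complex.nonneg_iff.1 (hY.diag_nonneg (i := i))).1
  have z0 : ∀ i, 0 ≤ z i := fun i => (Complex.nonneg_iff.1 (hZ.diag_nonneg (i := i))).1
  have a0 : ∀ i, 0 ≤ α i ^ 2 := fun i => sq_nonneg _
  have ta : (A * Aᴴ).trace.re = ∑ i, α i ^ 2 := by
    rw [hAA, trace_diagonal, Complex.re_sum]
    simp only [Complex.ofReal_re]
  have ty : (B * Bᴴ).trace.re = ∑ i, y i := by simp [trace, hy]
  have tz : (Cᴴ * C).trace.re = ∑ i, z i := by simp [trace, hz]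
  have r1 := Rep.sum Finset.univ fun i _ => rep_psi (a0 i) (y0 i) (z0 i)
  have r2 := ((rep_psd (gram_psd A B C)).sub (rep_psd hY)).sub (rep_psd hZ)
  have main := r1.le r2 (by
    rw [gram, trace_fromBlocks, trace_add, trace_mul_comm C, Complex.add_re, Complex.add_re, ta]
    ring) (fun t ht => by
    have ht' : (0 : ℂ) ≤ ((t⁻¹ : ℝ) : ℂ) := by simpa using ht.le
    have hP : (1 + ((t⁻¹ : ℝ) : ℂ) • (B * Bᴴ)).PosDef := PosDef.one.add_posSemidef (hY.smul ht')
    have hQ : (1 + ((t⁻¹ : ℝ) : ℂ) • (Cᴴ * C)).PosDef := PosDef.one.add_posSemidef (hZ.smul ht')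
    have h := det_block_ineq hP hQ (fun i => √t⁻¹ * α i)
    have hK : (diagonal fun i => ((√t⁻¹ * α i : ℝ) : ℂ)) = ((√t⁻¹ : ℝ) : ℂ) • A := by
      rw [hA, ← diagonal_smul]
      congr 1
      ext i
      simp
    let _ := hP.isUnit.invertible
    rw [hK, det_fromBlocks₁₁, invOf_eq_nonsing_inv] at h
    unfold ld
    rw [det_gram _ _ _ _ hP.det_pos.ne']
    refine le_trans (le_of_eq ?_) (h.trans (le_of_eq ?_))
    · refine Finset.sum_congr rfl fun i _ => ?_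
      congr 2
      have e1 : ((1 + ((t⁻¹ : ℝ) : ℂ) • (B * Bᴴ)) i i).re = 1 + t⁻¹ * y i := by
        simp only [Matrix.add_apply, one_apply_eq, Matrix.smul_apply, smul_eq_mul, Complex.add_re,
          Complex.one_re, Complex.re_ofReal_mul, hy]
      have e2 : ((1 + ((t⁻¹ : ℝ) : ℂ) • (Cᴴ * C)) i i).re = 1 + t⁻¹ * z i := by
        simp only [Matrix.add_apply, one_apply_eq, Matrix.smul_apply, smul_eq_mul, Complex.add_re,
          Complex.one_re, Complex.re_ofReal_mul, hz]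
      rw [e1, e2, mul_pow, Real.sq_sqrt (by positivity)]
      have := y0 i
      have := z0 i
      field_simp
    · congr 6
      rw [hAh, Matrix.mul_neg, sub_neg_eq_add, Matrix.smul_mul, Matrix.smul_mul, Matrix.mul_smul,
        smul_smul, ← Complex.ofReal_mul, Real.mul_self_sqrt (by positivity)])
  have := psi_sum_le a0 y0 z0
  unfold ZB
  rw [S_mul_comm C, trace_mul_comm C, ta, ty, tz, hAA, S_diagonal a0]
  rw [Finset.sum_add_distrib] at main
  linarith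

theorem ZB.of_conj {A B : Matrix m k ℂ} {C : Matrix n k ℂ} {J₁ : Matrix m' m ℂ}
    {J₂ : Matrix k' k ℂ} {J₃ : Matrix n' n ℂ} (h₁ : J₁ᴴ * J₁ = 1) (h₂ : J₂ᴴ * J₂ = 1)
    (h₃ : J₃ᴴ * J₃ = 1) (h : ZB (J₁ * A * J₂ᴴ) (J₁ * B * J₂ᴴ) (J₃ * C * J₂ᴴ)) : ZB A B C := by
  have hJ : (fromBlocks J₁ 0 0 J₃)ᴴ * fromBlocks J₁ 0 0 J₃ = 1 := by
    rw [fromBlocks_conjTranspose, fromBlocks_multiply, ← fromBlocks_one]
    simp [h₁, h₃]
  have eg : gram (J₁ * A * J₂ᴴ) (J₁ * B * J₂ᴴ) (J₃ * C * J₂ᴴ) =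
      fromBlocks J₁ 0 0 J₃ * gram A B C * (fromBlocks J₁ 0 0 J₃)ᴴ := by
    unfold gram
    rw [fromBlocks_conjTranspose, fromBlocks_multiply, fromBlocks_multiply]
    simp [h₂, Matrix.mul_add, Matrix.add_mul, Matrix.mul_assoc, ← Matrix.mul_assoc J₂ᴴ]
  unfold ZB at h ⊢
  have e1 : (J₁ * A * J₂ᴴ) * (J₁ * A * J₂ᴴ)ᴴ = J₁ * (A * Aᴴ) * J₁ᴴ := by
    simp [h₂, Matrix.mul_assoc, ← Matrix.mul_assoc J₂ᴴ]
  have e2 : (J₁ * B * J₂ᴴ) * (J₁ * B * J₂ᴴ)ᴴ = J₁ * (B * Bᴴ) * J₁ᴴ := by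
    simp [h₂, Matrix.mul_assoc, ← Matrix.mul_assoc J₂ᴴ]
  have e3 : (J₃ * C * J₂ᴴ) * (J₃ * C * J₂ᴴ)ᴴ = J₃ * (C * Cᴴ) * J₃ᴴ := by
    simp [h₂, Matrix.mul_assoc, ← Matrix.mul_assoc J₂ᴴ]
  rwa [eg, e1, e2, e3, S_conj hJ (gram_psd A B C), S_conj h₁ (posSemidef_self_mul_conjTranspose A),
    S_conj h₁ (posSemidef_self_mul_conjTranspose B),
    S_conj h₃ (posSemidef_self_mul_conjTranspose C), trace_conj h₁, trace_conj h₁,
    trace_conj h₃] at h

theorem zb_square (A B C : Matrix n n ℂ) : ZB A B C := by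
  obtain ⟨U, W, α, -, u2, -, w2, h⟩ := exists_svd A
  refine ZB.of_conj (J₁ := Uᴴ) (J₂ := Wᴴ) (J₃ := (1 : Matrix n n ℂ)) (by simpa using u2)
    (by simpa using w2) (by simp) ?_
  rw [conjTranspose_conjTranspose, h]
  exact zb_diag _ _ _

theorem zb (A B C : Matrix n k ℂ) : ZB A B C := by
  have h1 : (fromRows (1 : Matrix n n ℂ) (0 : Matrix k n ℂ))ᴴ *
      fromRows (1 : Matrix n n ℂ) (0 : Matrix k n ℂ) = 1 := by
    rw [conjTranspose_fromRows_eq_fromCols_conjTranspose, fromCols_mul_fromRows]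
    simp
  have h2 : (fromRows (0 : Matrix n k ℂ) (1 : Matrix k k ℂ))ᴴ *
      fromRows (0 : Matrix n k ℂ) (1 : Matrix k k ℂ) = 1 := by
    rw [conjTranspose_fromRows_eq_fromCols_conjTranspose, fromCols_mul_fromRows]
    simp
  exact ZB.of_conj h1 h2 h1 (zb_square _ _ _)

/-- Unnormalised concavity of the entropy. -/
theorem S_add_ge {X Y : Matrix n n ℂ} (hX : X.PosSemidef) (hY : Y.PosSemidef) :
    negMulLog (X.trace.re + Y.trace.re) + (vnEntropy X - negMulLog X.trace.re) +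
      (vnEntropy Y - negMulLog Y.trace.re) ≤ vnEntropy (X + Y) := by
  have hx := (Complex.nonneg_iff.1 hX.trace_nonneg).1
  have hy := (Complex.nonneg_iff.1 hY.trace_nonneg).1
  have hXY := hX.add hY
  obtain ⟨A, rfl⟩ := exists_factor hX
  obtain ⟨B, rfl⟩ := exists_factor hY
  have h := zb A B 0
  unfold ZB gram psi at h
  simp only [Matrix.zero_mul, conjTranspose_zero, trace_zero, Complex.zero_re,
    add_zero, mul_zero, negMulLog_zero, sub_zero, S_zero] at h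
  rw [S_fromBlocks hXY PosSemidef.zero, S_zero, E2_zero (add_nonneg hx hy)] at h
  linarith

/-- Midpoint concavity for states. -/
theorem S_mid_ge {X Y : Matrix n n ℂ} (hX : IsDensity X) (hY : IsDensity Y) :
    (vnEntropy X + vnEntropy Y) / 2 ≤
      vnEntropy (((1 / 2 : ℝ) : ℂ) • X + ((1 / 2 : ℝ) : ℂ) • Y) := by
  have h2 : (0 : ℂ) ≤ ((1 / 2 : ℝ) : ℂ) := by
    rw [← Complex.ofReal_zero, Complex.real_le_real]
    norm_num
  have h := S_add_ge (hX.1.smul h2) (hY.1.smul h2)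
  rw [S_smul hX.1 (by norm_num), S_smul hY.1 (by norm_num), trace_smul, trace_smul, hX.2,
    hY.2] at h
  simp only [smul_eq_mul, mul_one, Complex.ofReal_re, Complex.one_re] at h
  norm_num at h ⊢
  linarith

end Crest.Agent.R341
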