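import Crest.Prelude.Def_QChannel
import Crest.Agent.R341.ZB

/-! Qubit maps with two Kraus operators. -/

set_option autoImplicit false
set_option linter.unusedSectionVars false

namespace Crest.Agent.R341

open Matrix Crest.Quantum Real
open scoped ComplexOrder Kronecker

variable {e k : Type*} [Fintype e] [DecidableEq e] [Fintype k] [DecidableEq k]

/-- The combination `∑ u s * conj (v t) • M s t` of blocks. -/
def cond (u v : Bool → ℂ) (M : Matrix (Bool × e) (Bool × e) ℂ) : Matrix e e ℂ :=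
  ∑ s, ∑ t, (u s * star (v t)) • block M s t

/-- Conjugation by `K ⊗ 1`. -/
def kr (K : Matrix Bool Bool ℂ) (M : Matrix (Bool × e) (Bool × e) ℂ) :
    Matrix (Bool × e) (Bool × e) ℂ :=
  (K ⊗ₖ (1 : Matrix e e ℂ)) * M * (K ⊗ₖ (1 : Matrix e e ℂ))ᴴ

theorem kr_apply (K : Matrix Bool Bool ℂ) (M : Matrix (Bool × e) (Bool × e) ℂ) (s t : Bool)
    (i j : e) : kr K M (s, i) (t, j) = cond (K s) (K t) M i j := by
  simp [kr, cond, block, mul_apply, Fintype.sum_prod_type, kroneckerMap_apply, one_apply,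
    Matrix.sum_apply, apply_ite]
  ring

theorem block_kr (K : Matrix Bool Bool ℂ) (M : Matrix (Bool × e) (Bool × e) ℂ) (s t : Bool) :
    block (kr K M) s t = cond (K s) (K t) M := by
  ext i j
  exact kr_apply K M s t i j

theorem kr_psd (K : Matrix Bool Bool ℂ) {M : Matrix (Bool × e) (Bool × e) ℂ} (hM : M.PosSemidef) :
    (kr K M).PosSemidef := hM.mul_mul_conjTranspose_same _

theorem block_psd {M : Matrix (Bool × e) (Bool × e) ℂ} (hM : M.PosSemidef) (s : Bool) :
    (block M s s).PosSemidef := hM.submatrix fun i => (s, i)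

theorem cond_psd (u : Bool → ℂ) {M : Matrix (Bool × e) (Bool × e) ℂ} (hM : M.PosSemidef) :
    (cond u u M).PosSemidef := by
  have := block_psd (kr_psd (Matrix.of fun _ => u) hM) false
  rwa [block_kr] at this

theorem kr_mul (U K : Matrix Bool Bool ℂ) (M : Matrix (Bool × e) (Bool × e) ℂ) :
    kr (U * K) M = kr U (kr K M) := by
  unfold kr
  conv_lhs => rw [← Matrix.mul_one (1 : Matrix e e ℂ), mul_kronecker_mul]
  simp only [conjTranspose_mul, Matrix.mul_assoc]

theorem kr_add (U : Matrix Bool Bool ℂ) (M N : Matrix (Bool × e) (Bool × e) ℂ) :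
    kr U (M + N) = kr U M + kr U N := by
  simp only [kr, Matrix.mul_add, Matrix.add_mul]

theorem S_kr {U : Matrix Bool Bool ℂ} (hU : Uᴴ * U = 1) {M : Matrix (Bool × e) (Bool × e) ℂ}
    (hM : M.PosSemidef) : vnEntropy (kr U M) = vnEntropy M := by
  refine S_conj ?_ hM
  rw [conjTranspose_kronecker, ← mul_kronecker_mul, hU]
  simp

theorem eq_fromBlocks (X : Matrix (Bool × e) (Bool × e) ℂ) :
    X = (fromBlocks (block X false false) (block X false true) (block X true false)
      (block X true true)).submatrix (Equiv.boolProdEquivSum e) (Equiv.boolProdEquivSum e) := by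
  ext ⟨_ | _, i⟩ ⟨_ | _, j⟩ <;> rfl

/-- The combination `∑ u s • V s` of row blocks. -/
def rowc (u : Bool → ℂ) (V : Matrix (Bool × e) k ℂ) : Matrix e k ℂ :=
  Matrix.of fun i j => ∑ s, u s * V (s, i) j

theorem rowc_mul (u v : Bool → ℂ) (V : Matrix (Bool × e) k ℂ) :
    rowc u V * (rowc v V)ᴴ = cond u v (V * Vᴴ) := by
  ext i j
  simp only [rowc, cond, block, mul_apply, of_apply, conjTranspose_apply, Matrix.sum_apply,
    Fintype.sum_bool, Matrix.add_apply, Matrix.smul_apply, smul_eq_mul, Finset.mul_sum,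
    ← Finset.sum_add_distrib, star_add, star_mul']
  refine Finset.sum_congr rfl fun x _ => ?_
  ring

theorem cond_zero_left (v : Bool → ℂ) (M : Matrix (Bool × e) (Bool × e) ℂ) : cond 0 v M = 0 := by
  simp [cond]

theorem cond_zero_right (v : Bool → ℂ) (M : Matrix (Bool × e) (Bool × e) ℂ) : cond v 0 M = 0 := by
  simp [cond]

/-- determinant of the matrix with columns `K₀ x`, `K₁ x` -/
def det2 (K₀ K₁ : Matrix Bool Bool ℂ) (x : Bool → ℂ) : ℂ :=
  (K₀ *ᵥ x) false * (K₁ *ᵥ x) true - (K₀ *ᵥ x) true * (K₁ *ᵥ x) false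

/-- The conclusion for a pair of Kraus operators. -/
def TK (K₀ K₁ : Matrix Bool Bool ℂ) (M : Matrix (Bool × e) (Bool × e) ℂ) : Prop :=
  ∃ u₀ u₁ u₂ : Bool → ℂ,
    (∀ s t, u₀ s * star (u₀ t) + u₁ s * star (u₁ t) + u₂ s * star (u₂ t) =
      (K₀ᴴ * K₀ + K₁ᴴ * K₁) t s) ∧
    (∀ x, ‖det2 K₀ K₁ x‖ = ‖u₁ ⬝ᵥ x‖ * ‖u₂ ⬝ᵥ x‖) ∧
    psi (cond u₀ u₀ M).trace.re (cond u₁ u₁ M).trace.re (cond u₂ u₂ M).trace.re +
      vnEntropy (cond u₀ u₀ M) + vnEntropy (cond u₁ u₁ M) + vnEntropy (cond u₂ u₂ M) ≤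
      vnEntropy (kr K₀ M + kr K₁ M)

theorem tk_zero {K₀ K₁ : Matrix Bool Bool ℂ} (h : K₁ true = 0) {M : Matrix (Bool × e) (Bool × e) ℂ}
    (hM : M.PosSemidef) : TK K₀ K₁ M := by
  have h' : ∀ s, K₁ true s = 0 := fun s => congrFun h s
  refine ⟨K₀ false, K₁ false, K₀ true, fun s t => ?_, fun x => ?_, ?_⟩
  · simp [mul_apply, h']
    ring
  · simp [det2, mulVec, h, mul_comm]
  · obtain ⟨V, rfl⟩ := exists_factor hM
    have z := zb (rowc (K₀ false) V) (rowc (K₁ false) V) (rowc (K₀ true) V)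
    unfold ZB at z
    have e1 : kr K₀ (V * Vᴴ) + kr K₁ (V * Vᴴ) =
        (gram (rowc (K₀ false) V) (rowc (K₁ false) V) (rowc (K₀ true) V)).submatrix
          (Equiv.boolProdEquivSum e) (Equiv.boolProdEquivSum e) := by
      unfold gram
      simp only [rowc_mul]
      ext ⟨_ | _, i⟩ ⟨_ | _, j⟩ <;>
        simp [kr_apply, h, cond_zero_left, cond_zero_right, Equiv.boolProdEquivSum]
    rw [e1, S_submatrix (gram_psd _ _ _)]
    simpa only [rowc_mul] using z

theorem TK.of_left {K₀ K₁ U : Matrix Bool Bool ℂ} (hU : Uᴴ * U = 1)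
    (hU' : ‖U false false * U true true - U false true * U true false‖ = 1)
    {M : Matrix (Bool × e) (Bool × e) ℂ} (hM : M.PosSemidef) (h : TK (U * K₀) (U * K₁) M) :
    TK K₀ K₁ M := by
  obtain ⟨u₀, u₁, u₂, h1, h2, h3⟩ := h
  refine ⟨u₀, u₁, u₂, fun s t => ?_, fun x => ?_, ?_⟩
  · rw [h1]
    simp only [conjTranspose_mul, Matrix.mul_assoc, ← Matrix.mul_assoc Uᴴ, hU, Matrix.one_mul]
  · rw [← h2]
    have : det2 (U * K₀) (U * K₁) x =
        (U false false * U true true - U false true * U true false) * det2 K₀ K₁ x := by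
      simp only [det2, ← mulVec_mulVec]
      simp only [mulVec, dotProduct, Fintype.sum_bool]
      ring
    rw [this, norm_mul, hU', one_mul]
  · rwa [kr_mul, kr_mul, ← kr_add, S_kr hU ((kr_psd _ hM).add (kr_psd _ hM))] at h3

theorem TK.of_mix {K₀ K₁ : Matrix Bool Bool ℂ} {c₀ c₁ : ℂ} (hc : c₀ * star c₀ + c₁ * star c₁ = 1)
    {M : Matrix (Bool × e) (Bool × e) ℂ}
    (h : TK ((-star c₁) • K₀ + star c₀ • K₁) (c₀ • K₀ + c₁ • K₁) M) : TK K₀ K₁ M := by
  obtain ⟨u₀, u₁, u₂, h1, h2, h3⟩ := h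
  refine ⟨u₀, u₁, u₂, fun s t => ?_, fun x => ?_, ?_⟩
  · rw [h1]
    have : ((-star c₁) • K₀ + star c₀ • K₁)ᴴ * ((-star c₁) • K₀ + star c₀ • K₁) +
        (c₀ • K₀ + c₁ • K₁)ᴴ * (c₀ • K₀ + c₁ • K₁) = K₀ᴴ * K₀ + K₁ᴴ * K₁ := by
      simp only [conjTranspose_add, conjTranspose_smul, Matrix.add_mul, Matrix.mul_add,
        Matrix.smul_mul, Matrix.mul_smul, star_neg, star_star]
      match_scalars
      · linear_combination hc
      · ring
      · ring
      · linear_combination hc
    rw [this]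
  · rw [← h2]
    have : det2 ((-star c₁) • K₀ + star c₀ • K₁) (c₀ • K₀ + c₁ • K₁) x = -det2 K₀ K₁ x := by
      simp only [det2, add_mulVec, smul_mulVec, Pi.add_apply, Pi.smul_apply, smul_eq_mul]
      linear_combination (-((K₀ *ᵥ x) false * (K₁ *ᵥ x) true - (K₀ *ᵥ x) true * (K₁ *ᵥ x) false)) * hc
    rw [this, norm_neg]
  · convert h3 using 2
    simp only [kr, add_kronecker, smul_kronecker, conjTranspose_add, conjTranspose_smul,
      Matrix.add_mul, Matrix.mul_add, Matrix.smul_mul, Matrix.mul_smul, star_neg, star_star]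
    match_scalars
    · linear_combination -hc
    · linear_combination -hc
    · ring
    · ring

theorem exists_normalize {a b : ℂ} (h : a ≠ 0 ∨ b ≠ 0) :
    ∃ c : ℂ, (c * a) * star (c * a) + (c * b) * star (c * b) = 1 := by
  have h0 : 0 < Complex.normSq a + Complex.normSq b := by
    rcases h with h | h
    · exact add_pos_of_pos_of_nonneg (Complex.normSq_pos.2 h) (Complex.normSq_nonneg _)
    · exact add_pos_of_nonneg_of_pos (Complex.normSq_nonneg _) (Complex.normSq_pos.2 h)
  refine ⟨((√(Complex.normSq a + Complex.normSq b)⁻¹ : ℝ) : ℂ), ?_⟩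
  rw [RCLike.star_def, Complex.mul_conj, Complex.mul_conj, map_mul, map_mul, Complex.normSq_ofReal,
    Real.mul_self_sqrt (by positivity), ← Complex.ofReal_add, ← mul_add, inv_mul_cancel₀ h0.ne']
  simp

theorem tk_singular {K₀ K₁ : Matrix Bool Bool ℂ} (h : K₁.det = 0)
    {M : Matrix (Bool × e) (Bool × e) ℂ} (hM : M.PosSemidef) : TK K₀ K₁ M := by
  obtain ⟨r, hr, hr0⟩ := exists_vecMul_eq_zero_iff.2 h
  have : r false ≠ 0 ∨ r true ≠ 0 := by
    by_contra hh
    push Not at hh
    apply hr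
    ext (_ | _)
    · exact hh.1
    · exact hh.2
  obtain ⟨c, hc⟩ := exists_normalize this
  set a := c * r false with ha
  set b := c * r true with hb
  let U : Matrix Bool Bool ℂ := Matrix.of fun s t =>
    if s then (if t then b else a) else (if t then -star a else star b)
  refine TK.of_left (U := U) ?_ ?_ hM (tk_zero ?_ hM)
  · ext (_ | _) (_ | _) <;> simp [U, mul_apply]
    · simp only [RCLike.star_def] at hc
      linear_combination hc
    · ring
    · ring
    · simp only [RCLike.star_def] at hc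
      linear_combination hc
  · have : U false false * U true true - U false true * U true false = 1 := by
      simp only [U, of_apply, Bool.false_eq_true, if_false, if_true]
      linear_combination hc
    rw [this, norm_one]
  · ext t
    have := congrFun hr0 t
    simp only [vecMul, dotProduct, Fintype.sum_bool, Pi.zero_apply] at this
    simp only [U, mul_apply, of_apply, Fintype.sum_bool, Bool.false_eq_true, if_false, if_true,
      Pi.zero_apply, ha, hb]
    linear_combination c * this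

theorem det_bool (K : Matrix Bool Bool ℂ) :
    K.det = K false false * K true true - K false true * K true false := by
  rw [← det_submatrix_equiv_self finTwoEquiv, det_fin_two]
  rfl

theorem tk (K₀ K₁ : Matrix Bool Bool ℂ) {M : Matrix (Bool × e) (Bool × e) ℂ} (hM : M.PosSemidef) :
    TK K₀ K₁ M := by
  by_cases h : K₁.det = 0
  · exact tk_singular h hM
  obtain ⟨x, hx⟩ := exists_quadratic_eq_zero (b := K₀ false false * K₁ true true +
    K₁ false false * K₀ true true - K₀ false true * K₁ true false - K₁ false true * K₀ true false)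
    (c := K₀.det) h (IsAlgClosed.exists_eq_mul_self _)
  obtain ⟨c, hc⟩ := exists_normalize (a := 1) (b := x) (Or.inl one_ne_zero)
  refine TK.of_mix hc (tk_singular ?_ hM)
  simp only [det_bool, Matrix.add_apply, Matrix.smul_apply, smul_eq_mul] at hx ⊢
  linear_combination c ^ 2 * hx

end Crest.Agent.R341
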