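import Crest.Prelude.Def_AmpDamp
import Crest.Agent.R341.Qubit

/-! The entropy lower bound for the generalized amplitude damping channel. -/

set_option autoImplicit false
set_option linter.unusedSectionVars false

namespace Crest.Agent.R341

open Matrix Crest.Quantum Real Crest.MathPhysics.AmpDamp
open scoped ComplexOrder Kronecker

variable {e : Type*} [Fintype e] [DecidableEq e]

theorem trace_eq_blocks (M : Matrix (Bool × e) (Bool × e) ℂ) :
    M.trace = (block M false false).trace + (block M true true).trace := by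
  simp [trace, Fintype.sum_prod_type, block, add_comm]

theorem trace_block_conj {M : Matrix (Bool × e) (Bool × e) ℂ} (hM : M.IsHermitian) (s t : Bool) :
    (block M t s).trace = star (block M s t).trace := by
  simp only [trace, diag_apply, block, of_apply, star_sum]
  exact Finset.sum_congr rfl fun i _ => (hM.apply _ _).symm

theorem trace_cond_re {M : Matrix (Bool × e) (Bool × e) ℂ} (hM : M.IsHermitian) (u : Bool → ℂ) :
    (cond u u M).trace.re = Complex.normSq (u false) * (block M false false).trace.re +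
      Complex.normSq (u true) * (block M true true).trace.re +
      2 * (u false * star (u true) * (block M false true).trace).re := by
  have h0 := congrArg Complex.im (trace_block_conj hM false false)
  have h1 := congrArg Complex.im (trace_block_conj hM true true)
  simp only [cond, Fintype.sum_bool, trace_add, trace_smul, smul_eq_mul,
    trace_block_conj hM false true]
  simp only [RCLike.star_def, Complex.conj_im] at h0 h1
  have h0' : (block M false false).trace.im = 0 := by linarith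
  have h1' : (block M true true).trace.im = 0 := by linarith
  simp [Complex.normSq_apply, h0', h1']
  ring

theorem mix_ineq {b₁ b₂ c₁ c₂ l v : ℝ} (hb₁ : 0 ≤ b₁) (hb₂ : 0 ≤ b₂) (hc₁ : 0 ≤ c₁) (hc₂ : 0 ≤ c₂)
    (h₁ : b₁ * c₁ = v) (h₂ : b₂ * c₂ = v) (l0 : 0 ≤ l) (l1 : l ≤ 1) :
    v ≤ (l * b₁ + (1 - l) * b₂) * (l * c₁ + (1 - l) * c₂) := by
  have h : 2 * v ≤ b₁ * c₂ + b₂ * c₁ := by
    refine le_trans (le_abs_self _) (abs_le_of_sq_le_sq ?_ (by positivity))
    have : (2 * v) ^ 2 = 4 * ((b₁ * c₂) * (b₂ * c₁)) := by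
      rw [show (b₁ * c₂) * (b₂ * c₁) = (b₁ * c₁) * (b₂ * c₂) by ring, h₁, h₂]
      ring
    nlinarith [sq_nonneg (b₁ * c₂ - b₂ * c₁)]
  have h3 : 0 ≤ l * (1 - l) := mul_nonneg l0 (by linarith)
  have : (l * b₁ + (1 - l) * b₂) * (l * c₁ + (1 - l) * c₂) =
      l ^ 2 * (b₁ * c₁) + (1 - l) ^ 2 * (b₂ * c₂) + l * (1 - l) * (b₁ * c₂ + b₂ * c₁) := by ring
  rw [this, h₁, h₂]
  nlinarith

/-- the pure state vector with excited population `p` and phase `σ ω` -/
noncomputable def xv (p σ : ℝ) (ω : ℂ) : Bool → ℂ := fun s =>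
  if s then ((σ * √p : ℝ) : ℂ) * ω else ((√(1 - p) : ℝ) : ℂ)

theorem normSq_dot_xv {p σ : ℝ} (p0 : 0 ≤ p) (p1 : p ≤ 1) (hσ : σ ^ 2 = 1) {ω : ℂ}
    (hω : Complex.normSq ω = 1) (u : Bool → ℂ) :
    ‖u ⬝ᵥ xv p σ ω‖ ^ 2 = Complex.normSq (u false) * (1 - p) + Complex.normSq (u true) * p +
      2 * (σ * (√p * √(1 - p))) * (u false * star (u true) * star ω).re := by
  rw [← Complex.normSq_eq_norm_sq]
  have a1 := Real.mul_self_sqrt p0
  have a2 := Real.mul_self_sqrt (sub_nonneg.2 p1)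
  simp only [dotProduct, Fintype.sum_bool, xv, if_true, Bool.false_eq_true, if_false]
  rw [Complex.normSq_add]
  simp only [map_mul, hω, Complex.normSq_ofReal, a2]
  simp only [RCLike.star_def, Complex.mul_re, Complex.mul_im, Complex.conj_re, Complex.conj_im,
    Complex.ofReal_re, Complex.ofReal_im]
  linear_combination (Complex.normSq (u true) * p) * hσ + (Complex.normSq (u true) * σ ^ 2) * a1

theorem piece {K₀ K₁ : Matrix Bool Bool ℂ} (hK : K₀ᴴ * K₀ + K₁ᴴ * K₁ = 1)
    {M : Matrix (Bool × e) (Bool × e) ℂ} (hM : IsDensity M) {ω : ℂ} (hω : Complex.normSq ω = 1)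
    (hr : (block M false true).trace = (‖(block M false true).trace‖ : ℝ) * star ω) {v : ℝ}
    (hv : ∀ σ : ℝ, σ ^ 2 = 1 → ‖det2 K₀ K₁ (xv (block M true true).trace.re σ ω)‖ ^ 2 = v) :
    ∃ u : Fin 3 → Bool → ℂ, (∀ s t, ∑ j, u j s * star (u j t) = if t = s then 1 else 0) ∧
      E2 1 v + ∑ j, (vnEntropy (cond (u j) (u j) M) - negMulLog (cond (u j) (u j) M).trace.re) ≤
        vnEntropy (kr K₀ M + kr K₁ M) := by
  obtain ⟨u₀, u₁, u₂, h1, h2, h3⟩ := tk K₀ K₁ hM.1
  rw [hK] at h1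
  refine ⟨![u₀, u₁, u₂], fun s t => ?_, ?_⟩
  · simpa [Fin.sum_univ_three, one_apply] using h1 s t
  set p := (block M true true).trace.re with hp
  set ρ := ‖(block M false true).trace‖ with hρ
  have p0 : 0 ≤ p := (Complex.nonneg_iff.1 (block_psd hM.1 true).trace_nonneg).1
  have q0 : 0 ≤ (block M false false).trace.re :=
    (Complex.nonneg_iff.1 (block_psd hM.1 false).trace_nonneg).1
  have hq : (block M false false).trace.re = 1 - p := by
    have := congrArg Complex.re (trace_eq_blocks M)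
    rw [hM.2, Complex.add_re, Complex.one_re] at this
    linarith
  have p1 : p ≤ 1 := by linarith
  have tc : ∀ u : Bool → ℂ, (cond u u M).trace.re = Complex.normSq (u false) * (1 - p) +
      Complex.normSq (u true) * p + 2 * ρ * (u false * star (u true) * star ω).re := by
    intro u
    rw [trace_cond_re hM.1.1, hq, ← hp, hr, mul_left_comm, Complex.re_ofReal_mul]
    ring
  have tn : ∀ u : Bool → ℂ, 0 ≤ (cond u u M).trace.re := fun u =>
    (Complex.nonneg_iff.1 (cond_psd u hM.1).trace_nonneg).1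
  have hρ1 : ρ ≤ √p * √(1 - p) := by
    have hd : discrim (1 - p) (-2 * ρ) p ≤ 0 := by
      refine discrim_le_zero fun x => ?_
      have := tn fun s => if s then -star ω else (x : ℂ)
      rw [tc] at this
      simp only [Bool.false_eq_true, if_false, if_true, Complex.normSq_ofReal, RCLike.star_def,
        Complex.normSq_neg, Complex.normSq_conj, hω, map_neg, Complex.conj_conj, mul_neg,
        neg_mul, mul_assoc, Complex.mul_conj, Complex.neg_re, Complex.ofReal_one, mul_one,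
        Complex.ofReal_re] at this
      nlinarith
    rw [← Real.sqrt_mul p0]
    refine Real.le_sqrt_of_sq_le ?_
    unfold discrim at hd
    nlinarith
  have ρ0 : 0 ≤ ρ := norm_nonneg _
  obtain ⟨l, l0, l1, hl⟩ : ∃ l : ℝ, 0 ≤ l ∧ l ≤ 1 ∧ (2 * l - 1) * (√p * √(1 - p)) = ρ := by
    rcases (ρ0.trans hρ1).eq_or_lt with h | h
    · exact ⟨0, le_rfl, zero_le_one, by rw [← h] at hρ1 ⊢; linarith⟩
    · refine ⟨(1 + ρ / (√p * √(1 - p))) / 2, by positivity, ?_, ?_⟩
      · have := (div_le_one h).2 hρ1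
        linarith
      · have := div_mul_cancel₀ ρ h.ne'
        linarith
  have tl : ∀ u : Bool → ℂ, (cond u u M).trace.re =
      l * ‖u ⬝ᵥ xv p 1 ω‖ ^ 2 + (1 - l) * ‖u ⬝ᵥ xv p (-1) ω‖ ^ 2 := by
    intro u
    rw [tc, normSq_dot_xv p0 p1 (by norm_num) hω, normSq_dot_xv p0 p1 (by norm_num) hω, ← hl]
    ring
  have v1 := hv 1 (by norm_num)
  have v2 := hv (-1) (by norm_num)
  rw [h2, mul_pow] at v1 v2
  have hbc := mix_ineq (sq_nonneg _) (sq_nonneg _) (sq_nonneg _) (sq_nonneg _) v1 v2 l0 l1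
  rw [← tl, ← tl] at hbc
  have hsum : (cond u₀ u₀ M).trace.re + (cond u₁ u₁ M).trace.re + (cond u₂ u₂ M).trace.re = 1 := by
    have a := congrArg Complex.re (h1 false false)
    have b := congrArg Complex.re (h1 true true)
    have c := congrArg (fun z => (z * star ω).re) (h1 false true)
    simp only [RCLike.star_def, Complex.mul_conj, Complex.add_re, Complex.ofReal_re, one_apply_eq,
      Complex.one_re] at a b
    simp only [add_mul, Complex.add_re, ne_eq, Bool.true_eq_false, not_false_eq_true,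
      one_apply_ne, zero_mul, Complex.zero_re] at c
    rw [tc, tc, tc]
    linear_combination (1 - p) * a + p * b + 2 * ρ * c
  have v0 : 0 ≤ v := by rw [← v1]; positivity
  have hm := E2_mono zero_le_one v0 hbc (by
    have := tn u₀
    have := tn u₁
    have := tn u₂
    nlinarith [sq_nonneg ((cond u₁ u₁ M).trace.re - (cond u₂ u₂ M).trace.re)])
  unfold psi at h3
  rw [hsum] at h3
  simp only [Fin.sum_univ_three, cons_val_zero, cons_val_one, cons_val]
  linarith

/-- first Kraus operator -/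
def K0 (a a' : ℝ) (μ : ℂ) : Matrix Bool Bool ℂ :=
  Matrix.of fun s t => if s then (if t then a' * μ else 0) else (if t then 0 else a)

/-- second Kraus operator -/
def K1 (b b' : ℝ) (ε ω : ℂ) : Matrix Bool Bool ℂ :=
  Matrix.of fun s t => if s then (if t then 0 else b' * ω) else (if t then ε * b * star ω else 0)

theorem K_tp {a a' b b' : ℝ} {μ ε ω : ℂ} (h1 : a * a + b' * b' = 1) (h2 : a' * a' + b * b = 1)
    (hμ : Complex.normSq μ = 1) (hε : Complex.normSq ε = 1) (hω : Complex.normSq ω = 1) :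
    (K0 a a' μ)ᴴ * K0 a a' μ + (K1 b b' ε ω)ᴴ * K1 b b' ε ω = 1 := by
  have hμ' : μ * (starRingEnd ℂ) μ = 1 := by rw [Complex.mul_conj, hμ]; simp
  have hε' : ε * (starRingEnd ℂ) ε = 1 := by rw [Complex.mul_conj, hε]; simp
  have hω' : ω * (starRingEnd ℂ) ω = 1 := by rw [Complex.mul_conj, hω]; simp
  have h1' : (a : ℂ) * a + b' * b' = 1 := by exact_mod_cast h1
  have h2' : (a' : ℂ) * a' + b * b = 1 := by exact_mod_cast h2
  ext (_ | _) (_ | _) <;> simp [K0, K1, mul_apply]
  · linear_combination h1' + b' * b' * hω'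
  · linear_combination h2' + a' * a' * hμ' + b * b * (ω * (starRingEnd ℂ) ω) * hε' + b * b * hω'

theorem K_det {a a' b b' : ℝ} {μ ε ω : ℂ} (hμ : Complex.normSq μ = 1) (hε : Complex.normSq ε = 1)
    (hω : Complex.normSq ω = 1) (h : a * a' * (ε * μ).re = -(b * b')) {p σ : ℝ} (p0 : 0 ≤ p)
    (p1 : p ≤ 1) (hσ : σ ^ 2 = 1) :
    ‖det2 (K0 a a' μ) (K1 b b' ε ω) (xv p σ ω)‖ ^ 2 =
      (a * a) * (b' * b') * (1 - p) ^ 2 + (a' * a') * (b * b) * p ^ 2 +
        2 * (b * b) * (b' * b') * p * (1 - p) := by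
  have hω' : ω * (starRingEnd ℂ) ω = 1 := by rw [Complex.mul_conj, hω]; simp
  have a1 : ((√p : ℝ) : ℂ) * (√p : ℝ) = p := by exact_mod_cast Real.mul_self_sqrt p0
  have a2 : ((√(1 - p) : ℝ) : ℂ) * (√(1 - p) : ℝ) = 1 - p := by
    exact_mod_cast Real.mul_self_sqrt (sub_nonneg.2 p1)
  have a3 : (σ : ℂ) ^ 2 = 1 := by exact_mod_cast hσ
  have e1 : det2 (K0 a a' μ) (K1 b b' ε ω) (xv p σ ω) =
      ω * (((a * b' * (1 - p) : ℝ) : ℂ) - ((a' * b * p : ℝ) : ℂ) * (ε * μ)) := by
    simp [det2, K0, K1, xv, mulVec, dotProduct]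
    linear_combination (a * b' * ω) * a2 - (a' * b * ε * μ * ω * (ω * (starRingEnd ℂ) ω) * σ ^ 2) * a1
      - (a' * b * ε * μ * ω * p * (ω * (starRingEnd ℂ) ω)) * a3 - (a' * b * ε * μ * ω * p) * hω'
  rw [e1, ← Complex.normSq_eq_norm_sq, map_mul, hω, one_mul, Complex.normSq_sub]
  simp only [map_mul, hμ, hε, Complex.normSq_ofReal, Complex.conj_ofReal]
  rw [← map_mul, Complex.re_ofReal_mul, Complex.re_ofReal_mul, Complex.conj_re]
  linear_combination (-2 * b * b' * p * (1 - p)) * h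

/-- The map `gad ⊗ id`. -/
noncomputable def gadT (γ ν : ℝ) (N : Matrix (Bool × e) (Bool × e) ℂ) :
    Matrix (Bool × e) (Bool × e) ℂ :=
  Matrix.of fun p q => ∑ s' : Bool, ∑ t' : Bool,
    qubitCoeff (gadMap γ ν) p.1 q.1 s' t' * N (s', p.2) (t', q.2)

/-- determinant of the output on a pure state -/
def vv (γ ν p : ℝ) : ℝ := γ * ν * (1 - ν) + γ * (1 - γ) * (p - ν) ^ 2

theorem exists_unit (z : ℂ) : ∃ μ : ℂ, Complex.normSq μ = 1 ∧ z = (‖z‖ : ℝ) * μ :=
  ⟨Complex.exp (Complex.arg z * Complex.I), by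
    rw [Complex.normSq_eq_norm_sq, Complex.norm_exp_ofReal_mul_I]; simp,
    (Complex.norm_mul_exp_arg_mul_I z).symm⟩

theorem exists_params {γ ν : ℝ} (hγ : γ ∈ Set.Icc (0 : ℝ) 1) (hν : ν ∈ Set.Icc (0 : ℝ) 1) :
    ∃ (a a' b b' : ℝ) (μ : ℂ), a * a = 1 - γ * ν ∧ a' * a' = 1 - γ + γ * ν ∧
      b * b = γ * (1 - ν) ∧ b' * b' = γ * ν ∧ Complex.normSq μ = 1 ∧
      a * a' * μ.re = √(1 - γ) ∧ a * a' * μ.im = b * b' := by
  obtain ⟨g0, g1⟩ := hγ
  obtain ⟨n0, n1⟩ := hν
  have h1 : 0 ≤ 1 - γ * ν := by nlinarith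
  have h2 : 0 ≤ 1 - γ + γ * ν := by nlinarith
  have h3 : 0 ≤ γ * (1 - ν) := by nlinarith
  have h4 : 0 ≤ γ * ν := by positivity
  obtain ⟨μ, hμ, h⟩ := exists_unit ⟨√(1 - γ), √(γ * (1 - ν)) * √(γ * ν)⟩
  have hn : ‖(⟨√(1 - γ), √(γ * (1 - ν)) * √(γ * ν)⟩ : ℂ)‖ = √(1 - γ * ν) * √(1 - γ + γ * ν) := by
    rw [Complex.norm_def, Complex.normSq_mk, ← Real.sqrt_mul h1, ← Real.sqrt_mul h3,
      Real.mul_self_sqrt (by linarith), Real.mul_self_sqrt (by positivity)]
    congr 1
    ring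
  rw [hn] at h
  refine ⟨_, _, _, _, μ, Real.mul_self_sqrt h1, Real.mul_self_sqrt h2, Real.mul_self_sqrt h3,
    Real.mul_self_sqrt h4, hμ, ?_, ?_⟩
  · have := congrArg Complex.re h
    rw [Complex.re_ofReal_mul] at this
    exact this.symm
  · have := congrArg Complex.im h
    rw [Complex.im_ofReal_mul] at this
    exact this.symm

theorem gadT_split {γ ν a a' b b' : ℝ} {μ ω : ℂ} (ha : a * a = 1 - γ * ν)
    (ha' : a' * a' = 1 - γ + γ * ν) (hb : b * b = γ * (1 - ν)) (hb' : b' * b' = γ * ν)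
    (hμ : Complex.normSq μ = 1) (hre : a * a' * μ.re = √(1 - γ)) (hω : Complex.normSq ω = 1)
    (N : Matrix (Bool × e) (Bool × e) ℂ) :
    gadT γ ν N = ((1 / 2 : ℝ) : ℂ) • (kr (K0 a a' μ) N + kr (K1 b b' Complex.I ω) N) +
      ((1 / 2 : ℝ) : ℂ) • (kr (K0 a a' (star μ)) N + kr (K1 b b' (-Complex.I) ω) N) := by
  have hμ' : μ * (starRingEnd ℂ) μ = 1 := by rw [Complex.mul_conj, hμ]; simp
  have hω' : ω * (starRingEnd ℂ) ω = 1 := by rw [Complex.mul_conj, hω]; simp
  have c1 : (a : ℂ) * a = 1 - γ * ν := by exact_mod_cast ha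
  have c2 : (a' : ℂ) * a' = 1 - γ + γ * ν := by exact_mod_cast ha'
  have c3 : (b : ℂ) * b = γ * (1 - ν) := by exact_mod_cast hb
  have c4 : (b' : ℂ) * b' = γ * ν := by exact_mod_cast hb'
  have c5 : (a : ℂ) * a' * (μ + (starRingEnd ℂ) μ) = 2 * ((√(1 - γ) : ℝ) : ℂ) := by
    rw [Complex.add_conj, ← hre]
    push_cast
    ring
  have c6 : Complex.I * Complex.I = -1 := Complex.I_mul_I
  ext ⟨_ | _, i⟩ ⟨_ | _, j⟩ <;>
    simp [gadT, kr_apply, cond, block, K0, K1, qubitCoeff, gadMap, single_apply]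
  · linear_combination (-N (false, i) (false, j)) * c1 - N (true, i) (true, j) * c3
      - b * b * N (true, i) (true, j) * hω' + b * b * N (true, i) (true, j) * (ω * (starRingEnd ℂ) ω) * c6
  · linear_combination (-N (false, i) (true, j) / 2) * c5
  · linear_combination (-N (true, i) (false, j) / 2) * c5
  · linear_combination (-N (false, i) (false, j)) * c4 - N (true, i) (true, j) * c2
      - b' * b' * N (false, i) (false, j) * hω' - a' * a' * N (true, i) (true, j) * hμ'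

theorem density_kr_add {K₀ K₁ : Matrix Bool Bool ℂ} (hK : K₀ᴴ * K₀ + K₁ᴴ * K₁ = 1)
    {M : Matrix (Bool × e) (Bool × e) ℂ} (hM : IsDensity M) : IsDensity (kr K₀ M + kr K₁ M) := by
  refine ⟨(kr_psd _ hM.1).add (kr_psd _ hM.1), ?_⟩
  unfold kr
  rw [trace_add, trace_mul_comm, trace_mul_comm (_ * M), ← Matrix.mul_assoc, ← Matrix.mul_assoc,
    ← trace_add, ← Matrix.add_mul, conjTranspose_kronecker, conjTranspose_kronecker,
    ← mul_kronecker_mul, ← mul_kronecker_mul, ← add_kronecker, hK]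
  simpa using hM.2

theorem gadT_lower {γ ν : ℝ} (hγ : γ ∈ Set.Icc (0 : ℝ) 1) (hν : ν ∈ Set.Icc (0 : ℝ) 1)
    {M : Matrix (Bool × e) (Bool × e) ℂ} (hM : IsDensity M) :
    ∃ u : Bool → Fin 3 → Bool → ℂ,
      (∀ c s t, ∑ j, u c j s * star (u c j t) = if t = s then 1 else 0) ∧
      E2 1 (vv γ ν (block M true true).trace.re) + ∑ c, ∑ j, (1 / 2 : ℝ) *
        (vnEntropy (cond (u c j) (u c j) M) - negMulLog (cond (u c j) (u c j) M).trace.re) ≤
        vnEntropy (gadT γ ν M) := by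
  obtain ⟨a, a', b, b', μ, ha, ha', hb, hb', hμ, hre, him⟩ := exists_params hγ hν
  obtain ⟨ω', hω', hr⟩ := exists_unit (block M false true).trace
  have hω : Complex.normSq (star ω') = 1 := by simpa using hω'
  rw [← star_star ω'] at hr
  set ω := star ω'
  set p := (block M true true).trace.re with hp
  have p0 : 0 ≤ p := (Complex.nonneg_iff.1 (block_psd hM.1 true).trace_nonneg).1
  have q0 : 0 ≤ (block M false false).trace.re :=
    (Complex.nonneg_iff.1 (block_psd hM.1 false).trace_nonneg).1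
  have p1 : p ≤ 1 := by
    have := congrArg Complex.re (trace_eq_blocks M)
    rw [hM.2, Complex.add_re, Complex.one_re] at this
    linarith
  have h1 : a * a + b' * b' = 1 := by linarith
  have h2 : a' * a' + b * b = 1 := by linarith
  have hμ' : Complex.normSq (star μ) = 1 := by simpa using hμ
  have k1 := K_tp (ε := Complex.I) h1 h2 hμ (by simp) hω
  have k2 := K_tp (ε := -Complex.I) h1 h2 hμ' (by simp) hω
  have ev : (a * a) * (b' * b') * (1 - p) ^ 2 + (a' * a') * (b * b) * p ^ 2 +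
        2 * (b * b) * (b' * b') * p * (1 - p) = vv γ ν p := by
    rw [ha, ha', hb, hb', vv]
    ring
  obtain ⟨u₁, r1, s1⟩ := piece k1 hM hω hr (v := vv γ ν p) fun σ hσ => by
    rw [K_det hμ (by simp) hω (by simpa using him) p0 p1 hσ, ev]
  obtain ⟨u₂, r2, s2⟩ := piece k2 hM hω hr (v := vv γ ν p) fun σ hσ => by
    rw [K_det hμ' (by simp) hω (by simpa using him) p0 p1 hσ, ev]
  refine ⟨fun c => if c then u₁ else u₂, ?_, ?_⟩
  · rintro (_ | _)
    · exact r2
    · exact r1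
  · have := S_mid_ge (density_kr_add k1 hM) (density_kr_add k2 hM)
    rw [← gadT_split ha ha' hb hb' hμ hre hω] at this
    simp only [Fintype.sum_bool, if_true, Bool.false_eq_true, if_false, ← Finset.mul_sum]
    linarith

theorem gadT_density {γ ν : ℝ} (hγ : γ ∈ Set.Icc (0 : ℝ) 1) (hν : ν ∈ Set.Icc (0 : ℝ) 1)
    {M : Matrix (Bool × e) (Bool × e) ℂ} (hM : M.PosSemidef) : (gadT γ ν M).PosSemidef := by
  obtain ⟨a, a', b, b', μ, ha, ha', hb, hb', hμ, hre, -⟩ := exists_params hγ hν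
  have h2 : (0 : ℂ) ≤ ((1 / 2 : ℝ) : ℂ) := by
    rw [← Complex.ofReal_zero, Complex.real_le_real]
    norm_num
  rw [gadT_split (ω := 1) ha ha' hb hb' hμ hre (by simp)]
  exact (((kr_psd _ hM).add (kr_psd _ hM)).smul h2).add (((kr_psd _ hM).add (kr_psd _ hM)).smul h2)

end Crest.Agent.R341
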