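import Crest.Agent.R341.Final

/-! Tensor powers. -/

set_option autoImplicit false
set_option linter.unusedSectionVars false

namespace Crest.Agent.R341

open Matrix Crest.Quantum Real Crest.MathPhysics.AmpDamp
open scoped ComplexOrder Kronecker

variable {d e ι κ : Type*} [Fintype d] [DecidableEq d] [Fintype e] [DecidableEq e] [Fintype ι]
  [Fintype κ]

theorem cp_of_kraus {Φ : Matrix d d ℂ → Matrix e e ℂ} (A : ι → Matrix e d ℂ)
    (h : ∀ X, Φ X = ∑ j, A j * X * (A j)ᴴ) : IsCompletelyPositive Φ := by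
  intro k M hM
  have : blockwise Φ M = ∑ j, ((1 : Matrix (Fin k) (Fin k) ℂ) ⊗ₖ A j) * M *
      ((1 : Matrix (Fin k) (Fin k) ℂ) ⊗ₖ A j)ᴴ := by
    ext ⟨s, i⟩ ⟨t, i'⟩
    simp [blockwise, h, block, Matrix.sum_apply, mul_apply, Fintype.sum_prod_type,
      kroneckerMap_apply, one_apply, apply_ite, Finset.sum_ite_eq]
  rw [this]
  exact posSemidef_sum _ fun j _ => hM.mul_mul_conjTranspose_same _

theorem gad_kraus {γ ν : ℝ} (hγ : γ ∈ Set.Icc (0 : ℝ) 1) (hν : ν ∈ Set.Icc (0 : ℝ) 1) :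
    ∃ K : Fin 4 → Matrix Bool Bool ℂ, ∀ s t s' t',
      qubitCoeff (gadMap γ ν) s t s' t' = ∑ j, K j s s' * star (K j t t') := by
  have a1 : ((√(1 - ν) : ℝ) : ℂ) * (√(1 - ν) : ℝ) = 1 - ν := by
    exact_mod_cast Real.mul_self_sqrt (sub_nonneg.2 hν.2)
  have a2 : ((√ν : ℝ) : ℂ) * (√ν : ℝ) = ν := by exact_mod_cast Real.mul_self_sqrt hν.1
  have a3 : ((√γ : ℝ) : ℂ) * (√γ : ℝ) = γ := by exact_mod_cast Real.mul_self_sqrt hγ.1
  have a4 : ((√(1 - γ) : ℝ) : ℂ) * (√(1 - γ) : ℝ) = 1 - γ := by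
    exact_mod_cast Real.mul_self_sqrt (sub_nonneg.2 hγ.2)
  refine ⟨![K0 (√(1 - ν)) (√(1 - ν) * √(1 - γ)) 1, K0 (√ν * √(1 - γ)) (√ν) 1,
    K1 (√(1 - ν) * √γ) 0 1 1, K1 0 (√ν * √γ) 1 1], ?_⟩
  rintro (_ | _) (_ | _) (_ | _) (_ | _) <;>
    simp [qubitCoeff, gadMap, single_apply, Fin.sum_univ_four, K0, K1]
  · linear_combination -a1 - (((√ν : ℝ) : ℂ) * (√ν : ℝ)) * a4 - (1 - γ) * a2
  · linear_combination -(((√γ : ℝ) : ℂ) * (√γ : ℝ)) * a1 - (1 - ν) * a3
  · linear_combination -((√(1 - γ) : ℝ) : ℂ) * a1 - ((√(1 - γ) : ℝ) : ℂ) * a2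
  · linear_combination -((√(1 - γ) : ℝ) : ℂ) * a1 - ((√(1 - γ) : ℝ) : ℂ) * a2
  · linear_combination -(((√γ : ℝ) : ℂ) * (√γ : ℝ)) * a2 - ν * a3
  · linear_combination -a2 - (((√(1 - ν) : ℝ) : ℂ) * (√(1 - ν) : ℝ)) * a4 - (1 - γ) * a1

theorem power_channel {γ ν : ℝ} (hγ : γ ∈ Set.Icc (0 : ℝ) 1) (hν : ν ∈ Set.Icc (0 : ℝ) 1) (n : ℕ) :
    IsChannel (qubitPower n (gadMap γ ν)) := by
  refine ⟨⟨fun X Y => ?_, fun c X => ?_⟩, ?_, fun X => ?_⟩
  · ext σ τ
    simp [qubitPower, mul_add, Finset.sum_add_distrib]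
  · ext σ τ
    simp only [qubitPower, of_apply, Matrix.smul_apply, smul_eq_mul, Finset.mul_sum]
    exact Finset.sum_congr rfl fun _ _ => Finset.sum_congr rfl fun _ _ => by ring
  · obtain ⟨K, hK⟩ := gad_kraus hγ hν
    refine cp_of_kraus (ι := Fin n → Fin 4)
      (fun j => Matrix.of fun σ σ' => ∏ i, K (j i) (σ i) (σ' i)) fun X => ?_
    ext σ τ
    simp only [qubitPower, of_apply, hK, Matrix.sum_apply, mul_apply, conjTranspose_apply,
      Finset.prod_univ_sum, Fintype.piFinset_univ, Finset.sum_mul, star_prod,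
      Finset.prod_mul_distrib]
    conv_lhs => enter [2, σ']; rw [Finset.sum_comm]
    rw [Finset.sum_comm]
    refine Finset.sum_congr rfl fun j _ => ?_
    rw [Finset.sum_comm]
    exact Finset.sum_congr rfl fun _ _ => Finset.sum_congr rfl fun _ _ => by ring
  · have h : ∀ s' t', ∑ s, qubitCoeff (gadMap γ ν) s s s' t' = if s' = t' then 1 else 0 := by
      rintro (_ | _) (_ | _) <;> simp [qubitCoeff, gadMap, single_apply]
      ring
    simp only [trace, diag_apply, qubitPower, of_apply]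
    rw [Finset.sum_comm]
    refine Finset.sum_congr rfl fun σ' _ => ?_
    rw [Finset.sum_comm]
    have : ∀ τ' : Fin n → Bool, ∑ σ : Fin n → Bool,
        (∏ i, qubitCoeff (gadMap γ ν) (σ i) (σ i) (σ' i) (τ' i)) * X σ' τ' =
        if σ' = τ' then X σ' τ' else 0 := by
      intro τ'
      rw [← Finset.sum_mul, ← Fintype.piFinset_univ,
        ← Finset.prod_univ_sum (fun _ => Finset.univ)
          (fun i s => qubitCoeff (gadMap γ ν) s s (σ' i) (τ' i))]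
      simp only [h, Finset.prod_ite_zero, Finset.prod_const_one, Finset.mem_univ, forall_const,
        funext_iff]
      split_ifs <;> simp
    simp [this]

/-- splitting off the first qubit -/
def cE (n : ℕ) : Bool × (Fin n → Bool) ≃ (Fin (n + 1) → Bool) := Fin.consEquiv fun _ => Bool

theorem power_succ (Φ : Matrix Bool Bool ℂ → Matrix Bool Bool ℂ) (n : ℕ)
    (M : Matrix (Fin (n + 1) → Bool) (Fin (n + 1) → Bool) ℂ) :
    (qubitPower (n + 1) Φ M).submatrix (cE n) (cE n) =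
      qubitTensor Φ (qubitPower n Φ) (M.submatrix (cE n) (cE n)) := by
  ext ⟨s, σ⟩ ⟨t, τ⟩
  simp only [qubitPower, qubitTensor, submatrix_apply, of_apply, block, Finset.mul_sum]
  rw [← Equiv.sum_comp (cE n), Fintype.sum_prod_type]
  refine Finset.sum_congr rfl fun s' _ => ?_
  conv_lhs => enter [2, σ']; rw [← Equiv.sum_comp (cE n), Fintype.sum_prod_type]
  rw [Finset.sum_comm]
  refine Finset.sum_congr rfl fun t' _ => Finset.sum_congr rfl fun σ' _ =>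
    Finset.sum_congr rfl fun τ' _ => ?_
  simp [cE, Fin.consEquiv, Fin.prod_univ_succ, mul_assoc]

theorem density_submatrix {X : Matrix d d ℂ} (h : IsDensity X) (f : e ≃ d) :
    IsDensity (X.submatrix f f) := ⟨h.1.submatrix f, by rw [trace_submatrix_equiv, h.2]⟩

theorem hol_succ {γ ν : ℝ} (hγ : γ ∈ Set.Icc (0 : ℝ) 1) (hν : ν ∈ Set.Icc (0 : ℝ) 1) (n : ℕ)
    {q : ι → ℝ} {ρ : ι → Matrix (Fin (n + 1) → Bool) (Fin (n + 1) → Bool) ℂ} (h : Ens q ρ) :
    hol (qubitPower (n + 1) (gadMap γ ν)) q ρ =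
      hol (qubitTensor (gadMap γ ν) (qubitPower n (gadMap γ ν))) q
        fun a => (ρ a).submatrix (cE n) (cE n) := by
  have hE : Ens q fun a => qubitPower (n + 1) (gadMap γ ν) (ρ a) :=
    ⟨h.1, h.2.1, fun a => chan_density (power_channel hγ hν _) (h.2.2 a)⟩
  unfold hol
  simp only [← power_succ]
  rw [← S_submatrix (density_avg hE).1 (cE n)]
  congr 1
  · congr 1
    ext i j
    simp [Matrix.sum_apply]
  · exact Finset.sum_congr rfl fun a _ => by rw [S_submatrix (hE.2.2 a).1]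

theorem S_unique [Unique d] {X : Matrix d d ℂ} (h : IsDensity X) : vnEntropy X = 0 := by
  have : X = diagonal fun _ => ((1 : ℝ) : ℂ) := by
    ext i j
    have := h.2
    simp only [trace, diag_apply, Finset.univ_unique, Finset.sum_singleton] at this
    rw [Subsingleton.elim i default, Subsingleton.elim j default, this]
    simp
  rw [this, S_diagonal fun _ => zero_le_one]
  simp

theorem hol_zero {γ ν : ℝ} (hγ : γ ∈ Set.Icc (0 : ℝ) 1) (hν : ν ∈ Set.Icc (0 : ℝ) 1)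
    {q : ι → ℝ} {ρ : ι → Matrix (Fin 0 → Bool) (Fin 0 → Bool) ℂ} (h : Ens q ρ) :
    hol (qubitPower 0 (gadMap γ ν)) q ρ = 0 := by
  have hE : Ens q fun a => qubitPower 0 (gadMap γ ν) (ρ a) :=
    ⟨h.1, h.2.1, fun a => chan_density (power_channel hγ hν _) (h.2.2 a)⟩
  unfold hol
  rw [S_unique (density_avg hE)]
  simp [S_unique (hE.2.2 _)]

theorem rate_eq (γ ν p : ℝ) :
    gadRate γ ν p = binEntropy ((1 - γ) * p + γ * ν) - E2 1 (vv γ ν p) := by
  rw [E2_one]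
  rfl

theorem rate_jensen {γ ν : ℝ} (hγ : γ ∈ Set.Icc (0 : ℝ) 1) (hν : ν ∈ Set.Icc (0 : ℝ) 1)
    {q p : ι → ℝ} (q0 : ∀ a, 0 ≤ q a) (q1 : ∑ a, q a = 1) (hp : ∀ a, p a ∈ Set.Icc (0 : ℝ) 1) :
    binEntropy ((1 - γ) * (∑ a, q a * p a) + γ * ν) - ∑ a, q a * E2 1 (vv γ ν (p a)) ≤
      gadRate γ ν (∑ a, q a * p a) := by
  have h := E2_jensen (x := fun a => p a - ν) q0 q1 (c₀ := γ * ν * (1 - ν)) (c₁ := γ * (1 - γ))
    (mul_nonneg (mul_nonneg hγ.1 hν.1) (sub_nonneg.2 hν.2)) (mul_nonneg hγ.1 (sub_nonneg.2 hγ.2))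
    fun a => vv_le hγ (hp a)
  have e1 : ∑ a, q a * (p a - ν) = ∑ a, q a * p a - ν := by
    simp only [mul_sub, Finset.sum_sub_distrib, ← Finset.sum_mul, q1, one_mul]
  rw [e1] at h
  rw [rate_eq]
  unfold vv
  linarith

theorem power_upper {γ ν : ℝ} (hγ : γ ∈ Set.Icc (0 : ℝ) 1) (hν : ν ∈ Set.Icc (0 : ℝ) 1) (n : ℕ) :
    ∀ (ι : Type) [Fintype ι] (q : ι → ℝ) (ρ : ι → Matrix (Fin n → Bool) (Fin n → Bool) ℂ),
      Ens q ρ → ∃ p ∈ Set.Icc (0 : ℝ) 1,
        hol (qubitPower n (gadMap γ ν)) q ρ ≤ n * gadRate γ ν p := by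
  induction n with
  | zero =>
    intro ι _ q ρ h
    exact ⟨0, by simp, by rw [hol_zero hγ hν h]; simp⟩
  | succ n ih =>
    intro ι _ q ρ h
    have h' : Ens q fun a => (ρ a).submatrix (cE n) (cE n) :=
      ⟨h.1, h.2.1, fun a => density_submatrix (h.2.2 a) _⟩
    obtain ⟨p, w, σ, hp, hw, h1⟩ := main_upper hγ hν (power_channel hγ hν n) h'
    obtain ⟨p', hp', h2⟩ := ih _ w σ hw
    have h3 := rate_jensen hγ hν h.1 h.2.1 hp
    have P0 : 0 ≤ ∑ a, q a * p a := Finset.sum_nonneg fun a _ => mul_nonneg (h.1 a) (hp a).1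
    have P1 : ∑ a, q a * p a ≤ 1 := by
      rw [← h.2.1]
      exact Finset.sum_le_sum fun a _ => mul_le_of_le_one_right (h.1 a) (hp a).2
    rw [hol_succ hγ hν n h]
    have n0 : (0 : ℝ) ≤ n := Nat.cast_nonneg n
    rcases le_total (gadRate γ ν p') (gadRate γ ν (∑ a, q a * p a)) with h4 | h4
    · refine ⟨_, ⟨P0, P1⟩, ?_⟩
      push_cast
      nlinarith
    · refine ⟨p', hp', ?_⟩
      push_cast
      nlinarith

theorem power_lower {γ ν : ℝ} (hγ : γ ∈ Set.Icc (0 : ℝ) 1) (hν : ν ∈ Set.Icc (0 : ℝ) 1) {p : ℝ}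
    (hp : p ∈ Set.Icc (0 : ℝ) 1) (n : ℕ) :
    ∃ (m : ℕ) (q : Fin m → ℝ) (ρ : Fin m → Matrix (Fin n → Bool) (Fin n → Bool) ℂ),
      IsEnsemble q ρ ∧ n * gadRate γ ν p ≤ holevoInfo (qubitPower n (gadMap γ ν)) q ρ := by
  induction n with
  | zero =>
    have h : Ens (fun _ : Fin 1 => (1 : ℝ))
        (fun _ => (1 : Matrix (Fin 0 → Bool) (Fin 0 → Bool) ℂ)) :=
      ⟨fun _ => zero_le_one, by simp, fun _ => ⟨PosSemidef.one, by simp⟩⟩
    refine ⟨1, _, _, h, ?_⟩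
    have := hol_zero hγ hν h
    simp only [Nat.cast_zero, zero_mul]
    exact this.ge
  | succ n ih =>
    obtain ⟨m, q, ρ, h, h1⟩ := ih
    obtain ⟨w, σ, hw, h2⟩ := gad_ens hγ hν (ι := Unit) (q := fun _ => 1) (p := fun _ => p)
      (fun _ => zero_le_one) (by simp) fun _ => hp
    obtain ⟨q', ρ', h3, h4⟩ := prod_ens hγ hν (power_channel hγ hν n) hw h
    have h5 : Ens q' fun a => (ρ' a).submatrix (cE n).symm (cE n).symm :=
      ⟨h3.1, h3.2.1, fun a => density_submatrix (h3.2.2 a) _⟩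
    obtain ⟨m', q'', ρ'', h6, h7⟩ := exists_fin (qubitPower (n + 1) (gadMap γ ν)) h5
    refine ⟨m', q'', ρ'', h6, ?_⟩
    rw [h7, hol_succ hγ hν n h5]
    simp only [submatrix_submatrix, Equiv.symm_comp_self, submatrix_id_id]
    rw [h4, h2]
    simp only [Finset.univ_unique, Finset.sum_singleton, one_mul, ← rate_eq]
    push_cast
    change _ ≤ _ + holevoInfo _ q ρ
    linarith

end Crest.Agent.R341
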