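import Crest.Agent.R341.Ent

/-! Singular value decomposition of a square complex matrix. -/

set_option autoImplicit false
set_option linter.unusedSectionVars false

namespace Crest.Agent.R341

open Matrix
open scoped ComplexOrder

variable {n : Type*} [Fintype n] [DecidableEq n]

theorem exists_svd (A : Matrix n n ℂ) :
    ∃ (U W : Matrix n n ℂ) (α : n → ℝ), Uᴴ * U = 1 ∧ U * Uᴴ = 1 ∧ Wᴴ * W = 1 ∧ W * Wᴴ = 1 ∧
      Uᴴ * A * W = diagonal fun i => ((α i : ℝ) : ℂ) := by
  have hH := posSemidef_conjTranspose_mul_self A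
  obtain ⟨W, w1, w2, h⟩ := exists_diag hH.1
  set d := hH.1.eigenvalues with hd
  have d0 : ∀ i, 0 ≤ d i := hH.eigenvalues_nonneg
  set G := A * W with hG
  have hGG : Gᴴ * G = diagonal fun i => ((d i : ℝ) : ℂ) := by
    rw [hG, conjTranspose_mul, Matrix.mul_assoc, ← Matrix.mul_assoc Aᴴ, h]
    simp only [Matrix.mul_assoc, w1, Matrix.mul_one]
    rw [← Matrix.mul_assoc, w1, Matrix.one_mul]
  have hent : ∀ i j, ∑ r, star (G r i) * G r j = if i = j then ((d i : ℝ) : ℂ) else 0 := by
    intro i j
    have := congrFun (congrFun hGG i) j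
    simpa [mul_apply, diagonal_apply] using this
  let v : n → EuclideanSpace ℂ n := fun i =>
    WithLp.toLp 2 fun r => (((√(d i))⁻¹ : ℝ) : ℂ) * G r i
  have hv : Orthonormal ℂ (({i | d i ≠ 0} : Set n).domRestrict v) := by
    rw [orthonormal_iff_ite]
    rintro ⟨i, hi⟩ ⟨j, hj⟩
    simp only [Set.domRestrict_apply, v, PiLp.inner_apply, RCLike.inner_apply, map_mul,
      Complex.conj_ofReal, Subtype.mk.injEq]
    have : ∀ r, (((√(d j))⁻¹ : ℝ) : ℂ) * G r j * ((((√(d i))⁻¹ : ℝ) : ℂ) * (starRingEnd ℂ) (G r i))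
        = (((√(d j))⁻¹ * (√(d i))⁻¹ : ℝ) : ℂ) * (star (G r i) * G r j) := by
      intro r
      simp only [RCLike.star_def]
      push_cast
      ring
    simp only [this]
    rw [← Finset.mul_sum, hent]
    split_ifs with hij
    · subst hij
      have hi' : d i ≠ 0 := hi
      have : 0 < √(d i) := Real.sqrt_pos.2 (lt_of_le_of_ne (d0 i) hi'.symm)
      rw [← Complex.ofReal_mul, ← mul_inv, Real.mul_self_sqrt (d0 i), inv_mul_cancel₀ hi']
      simp
    · simp
  obtain ⟨b, hb⟩ := hv.exists_orthonormalBasis_extension_of_card_eq (by simp)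
  let U : Matrix n n ℂ := Matrix.of fun r i => b i r
  have u1 : Uᴴ * U = 1 := by
    ext i j
    have := (orthonormal_iff_ite.1 b.orthonormal) i j
    simp only [PiLp.inner_apply, RCLike.inner_apply] at this
    simp only [mul_apply, conjTranspose_apply, U, of_apply, one_apply, RCLike.star_def]
    rw [← this]
    exact Finset.sum_congr rfl fun r _ => mul_comm _ _
  refine ⟨U, W, fun i => √(d i), u1, mul_eq_one_comm.1 u1, w1, w2, ?_⟩
  have hGU : G = U * diagonal fun i => ((√(d i) : ℝ) : ℂ) := by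
    ext r i
    simp only [mul_diagonal, U, of_apply]
    by_cases hi : d i = 0
    · have h1 := hent i i
      rw [if_pos rfl, hi] at h1
      have h2 : ∑ r, Complex.normSq (G r i) = 0 := by
        have := congrArg Complex.re h1
        simpa [Complex.normSq_apply] using this
      rw [Finset.sum_eq_zero_iff_of_nonneg fun r _ => Complex.normSq_nonneg _] at h2
      rw [Complex.normSq_eq_zero.1 (h2 r (Finset.mem_univ _)), hi]
      simp
    · rw [hb i hi]
      have : √(d i) ≠ 0 := (Real.sqrt_pos.2 (lt_of_le_of_ne (d0 i) (Ne.symm hi))).ne'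
      have h' : ((√(d i) : ℝ) : ℂ) ≠ 0 := by exact_mod_cast this
      simp only [v]
      push_cast
      field_simp
  rw [Matrix.mul_assoc, ← hG, hGU, ← Matrix.mul_assoc, u1, Matrix.one_mul]

end Crest.Agent.R341
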